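import Vale.Agent.P263.GR.Gam
import Vale.Agent.P263.S.Htpy

/-!
# P263, block RNG: the additive extension is an isomorphism in the range (helper241)

`LCon l` : a contraction of the labels of a label system (through admissible labels).
`hatK y` : the additive extension of a function on `B` (values in any ring).
`exists_hat` : if the relative homology of `(B, A)` vanishes below `n`, then every cocycle of
positive degree `< 2 n` of `Gam l A` is `hatK y + d e` with `y` a cocycle of `(B, A)`.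
`of_hat` : if `hatK y` is a coboundary then `y` is a relative coboundary.
-/

namespace Vale.Agent.P263.GR

open Vale.Agent.P263.S Vale.Agent.P263.E Vale.Agent.P263.TJ

/-- a contraction of the labels -/
structure LCon (l : LabS) where
  /-- the base labels -/
  z : ∀ p, l.L.obj p
  z_map : ∀ {p q : ℕ} (f : Op p q), l.L.map f (z q) = z p
  z_good : ∀ p, l.Good ({z p} : Set (l.L.obj p))
  /-- the homotopy -/
  h : ∀ p, Op p 1 → l.L.obj p → l.L.obj p
  h_nat : ∀ {p q : ℕ} (f : Op p q) (χ : Op q 1) (a : l.L.obj q),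
    h p (χ.comp f) (l.L.map f a) = l.L.map f (h q χ a)
  h_one : ∀ p (a : l.L.obj p), h p (c1 p) a = a
  h_zero : ∀ p (a : l.L.obj p), h p (c0 p) a = z p
  h_good : ∀ p (χ : Op p 1) (a : l.L.obj p), l.Good ({a} : Set (l.L.obj p)) →
    l.Good ({h p χ a} : Set (l.L.obj p))

/-- the labels `Fin (p + 1) → ℕ` are contractible -/
def natCon : LCon LabS.nat where
  z p := fun _ => (0 : ℕ)
  z_map _ := rfl
  z_good p := fun _ => Set.injOn_singleton _ _
  h p χ a := fun v => if χ v = 0 then (0 : ℕ) else a v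
  h_nat _ _ _ := rfl
  h_one p a := by
    funext v
    show (if c1 p v = 0 then (0 : ℕ) else a v) = a v
    rw [c1_val, if_neg (by decide)]
  h_zero p a := by
    funext v
    show (if c0 p v = 0 then (0 : ℕ) else a v) = 0
    rw [c0_val, if_pos rfl]
  h_good p χ a _ := fun _ => Set.injOn_singleton _ _

variable {l : LabS} {B : SS} {A : Sb B} {K : Type}

/-! ### additive extensions of functions on sheets -/

section

variable [CommRing K]

/-- the sum over the sheets -/
def hatS {p : ℕ} (u : Sheet l B p → K) : (Gam l A).obj p → K := fun F => ∑ a ∈ F.1, u a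

/-- the additive extension -/
def hatK {p : ℕ} (y : B.obj p → K) : (Gam l A).obj p → K := fun F => ∑ a ∈ F.1, y a.2

/-- the coboundary of functions on sheets -/
def dSh {p : ℕ} (u : Sheet l B p → K) : Sheet l B (p + 1) → K := fun a =>
  ∑ i ∈ Finset.range (p + 2), sn i (u (shm l (dl p i) a))

theorem hatS_map {p q : ℕ} (f : Op p q) (u : Sheet l B p → K) (hu : ∀ a, A.mem a.2 → u a = 0)
    (F : (Gam l A).obj q) : hatS u ((Gam l A).map f F) = ∑ a ∈ F.1, u (shm l f a) :=
  sum_gmap f F.2 u hu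

theorem dF_hatS {p : ℕ} (u : Sheet l B p → K) (hu : ∀ a, A.mem a.2 → u a = 0) :
    dF (hatS (l := l) (A := A) u) = hatS (dSh u) := by
  funext F
  show ∑ i ∈ Finset.range (p + 2), sn i (hatS u ((Gam l A).map (dl p i) F)) =
    ∑ a ∈ F.1, ∑ i ∈ Finset.range (p + 2), sn i (u (shm l (dl p i) a))
  rw [Finset.sum_comm]
  refine Finset.sum_congr rfl fun i _ => ?_
  rw [hatS_map _ u hu, sn_sum]

theorem dF_hatK {p : ℕ} (y : B.obj p → K) (hy : ∀ b, A.mem b → y b = 0) :
    dF (hatK (l := l) (A := A) y) = hatK (dF y) :=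
  dF_hatS (fun a : Sheet l B p => y a.2) fun a => hy a.2

end

/-! ### the simplices with one sheet -/

theorem LCon.good_empty (C : LCon l) (p : ℕ) : l.Good (∅ : Set (l.L.obj p)) :=
  l.good_sub (C.z_good p) (Set.empty_subset _)

/-- the empty simplex -/
def emp (C : LCon l) (A : Sb B) (p : ℕ) : (Gam l A).obj p := ⟨∅, by
  refine ⟨l.good_sub (C.good_empty p) ?_, ?_, ?_⟩
  · rintro _ ⟨a, ha, rfl⟩
    exact absurd ha (by simp)
  · intro a ha
    exact absurd ha (by simp)
  · intro a ha
    exact absurd ha (by simp)⟩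

/-- the simplex with one sheet (empty over the base) -/
noncomputable def sgl {p : ℕ} (A : Sb B) (a : l.L.obj p) (ha : l.Good ({a} : Set (l.L.obj p)))
    (b : B.obj p) : (Gam l A).obj p := by
  classical
  exact ⟨({(a, b)} : Finset (Sheet l B p)).filter fun x => ¬ A.mem x.2, by
    refine ⟨l.good_sub ha ?_, ?_, ?_⟩
    · rintro _ ⟨x, hx, rfl⟩
      have := Finset.mem_singleton.1 (Finset.mem_filter.1 (Finset.mem_coe.1 hx)).1
      rw [this]
      rfl
    · intro x hx y hy _
      have h1 := Finset.mem_singleton.1 (Finset.mem_filter.1 (Finset.mem_coe.1 hx)).1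
      have h2 := Finset.mem_singleton.1 (Finset.mem_filter.1 (Finset.mem_coe.1 hy)).1
      rw [h1, h2]
    · intro x hx
      exact (Finset.mem_filter.1 hx).2⟩

theorem mem_sgl {p : ℕ} {a : l.L.obj p} {ha : l.Good ({a} : Set (l.L.obj p))} {b : B.obj p}
    {x : Sheet l B p} : x ∈ (sgl A a ha b).1 ↔ x = (a, b) ∧ ¬ A.mem b := by
  classical
  show x ∈ ({(a, b)} : Finset (Sheet l B p)).filter (fun x => ¬ A.mem x.2) ↔ _
  rw [Finset.mem_filter, Finset.mem_singleton]
  constructor
  · rintro ⟨rfl, h⟩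
    exact ⟨rfl, h⟩
  · rintro ⟨rfl, h⟩
    exact ⟨rfl, h⟩

theorem good_face {p q : ℕ} (f : Op p q) {a : l.L.obj q} (ha : l.Good ({a} : Set (l.L.obj q))) :
    l.Good ({l.L.map f a} : Set (l.L.obj p)) := by
  have := l.good_map f ha
  rwa [Set.image_singleton] at this

theorem sgl_map {p q : ℕ} (f : Op p q) (a : l.L.obj q) (ha : l.Good ({a} : Set (l.L.obj q)))
    (b : B.obj q) : (Gam l A).map f (sgl A a ha b) = sgl A (l.L.map f a) (good_face f ha)
      (B.map f b) := by
  apply Subtype.ext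
  ext x
  show x ∈ gmap l A f (sgl A a ha b).1 ↔ _
  rw [mem_gmap, mem_sgl]
  constructor
  · rintro ⟨⟨y, hy, rfl⟩, h⟩
    obtain ⟨rfl, -⟩ := mem_sgl.1 hy
    exact ⟨rfl, h⟩
  · rintro ⟨rfl, h⟩
    exact ⟨⟨(a, b), mem_sgl.2 ⟨rfl, fun hc => h (A.map_mem f hc)⟩, rfl⟩, h⟩

theorem sgl_of_mem (C : LCon l) {p : ℕ} (a : l.L.obj p) (ha : l.Good ({a} : Set (l.L.obj p)))
    {b : B.obj p} (hb : A.mem b) : sgl A a ha b = emp C A p := by
  apply Subtype.ext
  ext x
  rw [mem_sgl]
  constructor
  · rintro ⟨-, h⟩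
    exact absurd hb h
  · intro h
    exact absurd h (Finset.notMem_empty x)

theorem emp_map (C : LCon l) {p q : ℕ} (f : Op p q) :
    (Gam l A).map f (emp C A q) = emp C A p := by
  apply Subtype.ext
  ext x
  show x ∈ gmap l A f ∅ ↔ x ∈ (∅ : Finset _)
  rw [mem_gmap]
  constructor
  · rintro ⟨⟨y, hy, rfl⟩, h⟩
    exact absurd hy (Finset.notMem_empty y)
  · intro h
    exact absurd h (Finset.notMem_empty x)

theorem card_lt_two (C : LCon l) {p : ℕ} (F : (Gam l A).obj p) (h : F.1.card < 2) :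
    F = emp C A p ∨ ∃ a ha b, ¬ A.mem b ∧ F = sgl A a ha b := by
  rcases Nat.lt_or_ge F.1.card 1 with h1 | h1
  · left
    exact Subtype.ext (Finset.card_eq_zero.1 (by omega))
  · right
    obtain ⟨x, hx⟩ := Finset.card_eq_one.1 (show F.1.card = 1 by omega)
    have hxF : x ∈ F.1 := by rw [hx]; exact Finset.mem_singleton_self x
    have hb := F.2.2.2 x hxF
    refine ⟨x.1, l.good_sub F.2.1 ?_, x.2, hb, ?_⟩
    · intro y hy
      rw [Set.mem_singleton_iff] at hy
      exact ⟨x, hxF, hy.symm⟩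
    · apply Subtype.ext
      ext y
      have e1 : y ∈ F.1 ↔ y = x := (Iff.of_eq (congrArg (y ∈ ·) hx)).trans Finset.mem_singleton
      refine e1.trans (Iff.trans ?_ mem_sgl.symm)
      exact ⟨fun h => ⟨h, hb⟩, fun h => h.1⟩

section

variable [CommRing K]

theorem hatS_sgl {p : ℕ} (u : Sheet l B p → K) {a : l.L.obj p}
    {ha : l.Good ({a} : Set (l.L.obj p))} {b : B.obj p} (hb : ¬ A.mem b) :
    hatS u (sgl A a ha b) = u (a, b) := by
  have : (sgl A a ha b).1 = {(a, b)} := by
    ext x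
    rw [mem_sgl, Finset.mem_singleton]
    exact ⟨fun h => h.1, fun h => ⟨h, hb⟩⟩
  show ∑ x ∈ (sgl A a ha b).1, u x = _
  rw [this, Finset.sum_singleton]

theorem hatS_emp (C : LCon l) {p : ℕ} (u : Sheet l B p → K) : hatS u (emp C A p) = 0 :=
  Finset.sum_empty

theorem hatK_sgl {p : ℕ} (y : B.obj p → K) {a : l.L.obj p}
    {ha : l.Good ({a} : Set (l.L.obj p))} {b : B.obj p} (hb : ¬ A.mem b) :
    hatK y (sgl A a ha b) = y b := hatS_sgl (fun a : Sheet l B p => y a.2) hb

theorem hatK_emp (C : LCon l) {p : ℕ} (y : B.obj p → K) : hatK y (emp C A p) = 0 :=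
  Finset.sum_empty

/-- restriction to the base labels is a simplicial map -/
noncomputable def iz (C : LCon l) (A : Sb B) : SS.Map B (Gam l A) where
  app {p} b := sgl A (C.z p) (C.z_good p) b
  nat {p q} f b := by
    rw [sgl_map]
    have : ∀ (a a' : l.L.obj p) (h : l.Good ({a} : Set (l.L.obj p)))
        (h' : l.Good ({a'} : Set (l.L.obj p))), a = a' →
        sgl A a h (B.map f b) = sgl A a' h' (B.map f b) := by
      rintro a _ h h' rfl
      rfl
    exact this _ _ _ _ (C.z_map f).symm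

theorem dF_comp {X Y : SS} (g : SS.Map X Y) {j : ℕ} (c : Y.obj j → K) :
    dF (fun x => c (g.app x)) = fun x => dF c (g.app x) := by
  funext x
  refine Finset.sum_congr rfl fun i _ => ?_
  show sn i (c (g.app (X.map (dl j i) x))) = _
  rw [g.nat]

/-- the additive extension is injective on cohomology, all positive degrees -/
theorem of_hat (C : LCon l) {j : ℕ} (y : B.obj (j + 1) → K) (hy : ∀ b, A.mem b → y b = 0)
    (e : (Gam l A).obj j → K) (he : dF e = hatK y) :
    ∃ e' : B.obj j → K, (∀ b, A.mem b → e' b = 0) ∧ dF e' = y := by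
  refine ⟨fun b => e ((iz C A).app b) - e (emp C A j), fun b hb => ?_, ?_⟩
  · show e (sgl A (C.z j) (C.z_good j) b) - _ = 0
    rw [sgl_of_mem C _ _ hb, sub_self]
  · funext b
    have h1 : dF (fun b => e ((iz C A).app b) - e (emp C A j)) b =
        dF e ((iz C A).app b) - dF e (emp C A (j + 1)) := by
      show ∑ i ∈ Finset.range (j + 2), sn i (e ((iz C A).app (B.map (dl j i) b)) -
        e (emp C A j)) = _
      have h2 : ∀ i, sn i (e ((iz C A).app (B.map (dl j i) b)) - e (emp C A j)) =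
          sn i (e ((Gam l A).map (dl j i) ((iz C A).app b))) -
            sn i (e ((Gam l A).map (dl j i) (emp C A (j + 1)))) := by
        intro i
        rw [emp_map, ← (iz C A).nat]
        exact smul_sub _ _ _
      rw [Finset.sum_congr rfl fun i _ => h2 i, Finset.sum_sub_distrib]
      rfl
    rw [h1, he, hatK_emp, sub_zero]
    by_cases hb : A.mem b
    · show hatK y (sgl A (C.z (j + 1)) (C.z_good (j + 1)) b) = _
      rw [sgl_of_mem C _ _ hb, hatK_emp, hy b hb]
    · exact hatK_sgl (ha := C.z_good (j + 1)) y hb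

/-- the additive extension is injective in degree zero -/
theorem of_hat_zero (C : LCon l) (y : B.obj 0 → K) (hy : ∀ b, A.mem b → y b = 0)
    (he : (hatK y : (Gam l A).obj 0 → K) = 0) : y = 0 := by
  funext b
  by_cases hb : A.mem b
  · exact hy b hb
  · have := congrFun he (sgl A (C.z 0) (C.z_good 0) b)
    rwa [hatK_sgl y hb] at this

end

/-! ### one sheet: the prism -/

/-- good labels and simplices outside of the base -/
abbrev TGo (l : LabS) (A : Sb B) (p : ℕ) : Type :=
  {a : l.L.obj p // l.Good ({a} : Set (l.L.obj p))} × {x : B.obj p // ¬ A.mem x}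

/-- good labels -/
@[reducible] def goodP (l : LabS) : PSS where
  obj p := {a : l.L.obj p // l.Good ({a} : Set (l.L.obj p))}
  map f a := some ⟨l.L.map f a.1, good_face f a.2⟩
  map_id a := congrArg some (Subtype.ext (l.L.map_id a.1))
  map_comp f g a := congrArg some (Subtype.ext (l.L.map_comp f g a.1))

/-- sheets with a good label outside of the base -/
@[reducible] noncomputable def T1 (l : LabS) {B : SS} (A : Sb B) : PSS := (goodP l).smash (prt A)

section

variable [CommRing K]

theorem T1_elim {p q : ℕ} (f : Op p q) (x : TGo l A q) (c : TGo l A p → K)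
    (c' : Sheet l B p → K) (h0 : ∀ x, A.mem x.2 → c' x = 0)
    (h1 : ∀ x : TGo l A p, c' (x.1.1, x.2.1) = c x) :
    ((T1 l A).map f x).elim 0 c = c' (l.L.map f x.1.1, B.map f x.2.1) := by
  by_cases h : A.mem (B.map f x.2.1)
  · have : (T1 l A).map f x = none := by
      show Option.bind (some _) (fun a => (prtMap A f x.2).map fun b => (a, b)) = none
      rw [prtMap_neg h]
      rfl
    rw [this, h0 _ h]
    rfl
  · have : (T1 l A).map f x = some (⟨l.L.map f x.1.1, good_face f x.1.2⟩, ⟨B.map f x.2.1, h⟩) := by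
      show Option.bind (some _) (fun a => (prtMap A f x.2).map fun b => (a, b)) = _
      rw [prtMap_pos h]
      rfl
    rw [this]
    exact (h1 (⟨l.L.map f x.1.1, good_face f x.1.2⟩, ⟨B.map f x.2.1, h⟩)).symm

/-- a function on good sheets outside of the base, extended by zero -/
noncomputable def ext0 {p : ℕ} (c : TGo l A p → K) : Sheet l B p → K := fun x => by
  classical
  exact if h : l.Good ({x.1} : Set (l.L.obj p)) ∧ ¬ A.mem x.2 then c (⟨x.1, h.1⟩, ⟨x.2, h.2⟩) else 0

theorem ext0_base {p : ℕ} (c : TGo l A p → K) (x : Sheet l B p) (h : A.mem x.2) :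
    ext0 c x = 0 := dif_neg fun h' => h'.2 h

theorem ext0_of {p : ℕ} (c : TGo l A p → K) (x : TGo l A p) : ext0 c (x.1.1, x.2.1) = c x :=
  dif_pos ⟨x.1.2, x.2.2⟩

theorem T1_d {j : ℕ} (c : TGo l A j → K) (x : TGo l A (j + 1)) :
    (co K (T1 l A)).d j c x = dSh (ext0 c) (x.1.1, x.2.1) :=
  (co_d (T := T1 l A) c x).trans (Finset.sum_congr rfl fun i _ =>
    congrArg (sn i) (T1_elim (dl j i) x c (ext0 c) (ext0_base c) (ext0_of c)))

theorem lprism_nat (C : LCon l) {p q : ℕ} (α : Op p q) (θ : Op q 1) (c : TGo l A p → K)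
    (x : TGo l A q) :
    ((T1 l A).map α (⟨C.h q θ x.1.1, C.h_good q θ x.1.1 x.1.2⟩, x.2)).elim 0 c =
      ((T1 l A).map α x).elim 0 (fun x => c (⟨C.h p (θ.comp α) x.1.1,
        C.h_good p (θ.comp α) x.1.1 x.1.2⟩, x.2)) := by
  classical
  rw [T1_elim α _ c (ext0 c) (ext0_base c) (ext0_of c), T1_elim α x _
    (fun x => if l.Good ({x.1} : Set (l.L.obj p)) then ext0 c (C.h p (θ.comp α) x.1, x.2)
        else 0)]
  · show ext0 c (l.L.map α (C.h q θ x.1.1), B.map α x.2.1) =
      if l.Good ({l.L.map α x.1.1} : Set (l.L.obj p)) then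
        ext0 c (C.h p (θ.comp α) (l.L.map α x.1.1), B.map α x.2.1) else 0
    rw [if_pos (good_face α x.1.2), C.h_nat]
  · intro x hx
    have : ext0 c (C.h p (θ.comp α) x.1, x.2) = 0 := ext0_base c _ hx
    show (if l.Good ({x.1} : Set (l.L.obj p)) then ext0 c (C.h p (θ.comp α) x.1, x.2)
      else 0) = 0
    rw [this, ite_self]
  · intro x
    show (if _ then _ else (0 : K)) = _
    rw [if_pos x.1.2]
    exact ext0_of c (⟨C.h p (θ.comp α) x.1.1, C.h_good p (θ.comp α) x.1.1 x.1.2⟩, x.2)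

/-- the prism of the contraction of the labels -/
noncomputable def lprism (C : LCon l) (A : Sb B) (K : Type) [CommRing K] :
    Prism (co K (T1 l A)) (co K (T1 l A)) where
  h p χ :=
    { toFun := fun c x => c (⟨C.h p χ x.1.1, C.h_good p χ x.1.1 x.1.2⟩, x.2)
      map_add' := fun _ _ => rfl
      map_smul' := fun _ _ => rfl }
  nat α θ c := funext fun x => lprism_nat C α θ c x

/-- the value of a cochain on the simplices with one sheet -/
noncomputable def one {p : ℕ} (c : (Gam l A).obj p → K) : TGo l A p → K := fun x =>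
  c (sgl A x.1.1 x.1.2 x.2.1)

theorem one_d (C : LCon l) {j : ℕ} (c : (Gam l A).obj j → K) (h0 : c (emp C A j) = 0) :
    (co K (T1 l A)).d j (one c) = one (dF c) := by
  classical
  funext x
  refine (co_d (T := T1 l A) (one c) x).trans (Finset.sum_congr rfl fun i _ =>
    congrArg (sn i) ?_)
  refine (T1_elim (dl j i) x (one c)
    (fun x => if h : l.Good ({x.1} : Set (l.L.obj j)) then c (sgl A x.1 h x.2) else 0)
    (fun x hx => ?_) (fun x => ?_)).trans ?_
  · by_cases h : l.Good ({x.1} : Set (l.L.obj j))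
    · rw [dif_pos h, sgl_of_mem C x.1 h hx, h0]
    · rw [dif_neg h]
  · show (if h : l.Good ({x.1.1} : Set (l.L.obj j)) then c (sgl A x.1.1 h x.2.1) else 0) = _
    rw [dif_pos x.1.2]
    rfl
  · show (if h : l.Good ({l.L.map (dl j i) x.1.1} : Set (l.L.obj j)) then
      c (sgl A (l.L.map (dl j i) x.1.1) h (B.map (dl j i) x.2.1)) else 0) = _
    rw [dif_pos (good_face _ x.1.2), ← sgl_map]

theorem one_mem_Z (C : LCon l) {j : ℕ} (c : (Gam l A).obj j → K) (hc : dF c = 0)
    (h0 : c (emp C A j) = 0) : (one c : (co K (T1 l A)).obj j) ∈ (co K (T1 l A)).Z j := by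
  refine CosMod.mem_Z.2 ((one_d C c h0).trans ?_)
  rw [hc]
  rfl

theorem one_sub_mem (C : LCon l) {j : ℕ} (c : (Gam l A).obj j → K) (hc : dF c = 0)
    (h0 : c (emp C A j) = 0) :
    ((fun x => one c x - c ((iz C A).app x.2.1) : TGo l A j → K) : (co K (T1 l A)).obj j) ∈
      (co K (T1 l A)).Bd j := by
  have h := (lprism C A K).sub_mem (one_mem_Z C c hc h0)
  have e : (lprism C A K).h j (c1 j) (one c) - (lprism C A K).h j (c0 j) (one c) =
      ((fun x => one c x - c ((iz C A).app x.2.1) : TGo l A j → K) :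
        (co K (T1 l A)).obj j) := by
    have ho : ∀ (a a' : l.L.obj j) (h : l.Good ({a} : Set (l.L.obj j)))
        (h' : l.Good ({a'} : Set (l.L.obj j))) (b : B.obj j), a = a' →
        c (sgl A a h b) = c (sgl A a' h' b) := by
      rintro a _ h h' b rfl
      rfl
    funext x
    show c (sgl A (C.h j (c1 j) x.1.1) _ x.2.1) - c (sgl A (C.h j (c0 j) x.1.1) _ x.2.1) =
      c (sgl A x.1.1 x.1.2 x.2.1) - c (sgl A (C.z j) (C.z_good j) x.2.1)
    rw [ho _ _ _ x.1.2 x.2.1 (C.h_one j x.1.1), ho _ _ _ (C.z_good j) x.2.1 (C.h_zero j x.1.1)]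
  rwa [e] at h

end

section field

variable [Field K]

/-- **Every cocycle in the range is additive** up to coboundaries, positive degrees, cocycles which
vanish on the empty simplex. -/
theorem exists_hat (C : LCon l) {n j : ℕ} (h : (ch K (prt A)).Acy n) (hj : j + 1 < 2 * n)
    (c : (Gam l A).obj (j + 1) → K) (hc : dF c = 0) (h0 : c (emp C A (j + 1)) = 0) :
    ∃ (y : B.obj (j + 1) → K) (e : (Gam l A).obj j → K), (∀ b, A.mem b → y b = 0) ∧ dF y = 0 ∧
      e (emp C A j) = 0 ∧ c = hatK y + dF e := by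
  obtain ⟨e', he'⟩ := one_sub_mem C c hc h0
  let y : B.obj (j + 1) → K := fun b => c ((iz C A).app b)
  have hy : ∀ b, A.mem b → y b = 0 := fun b hb => by
    show c (sgl A (C.z (j + 1)) (C.z_good (j + 1)) b) = 0
    rw [sgl_of_mem C _ _ hb, h0]
  have hdy : dF y = 0 := by
    show dF (fun b => c ((iz C A).app b)) = 0
    rw [dF_comp, hc]
    rfl
  let u : Sheet l B j → K := ext0 (A := A) e'
  have hu : ∀ a, A.mem a.2 → u a = 0 := ext0_base (A := A) e'
  let e1 : (Gam l A).obj j → K := hatS u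
  have hc' : dF (c - hatK y - dF e1) = 0 := by
    rw [dF_sub, dF_sub, hc, dF_hatK y hy, hdy, dF_dF]
    have : (hatK (0 : B.obj (j + 1 + 1) → K) : (Gam l A).obj (j + 1 + 1) → K) = 0 :=
      funext fun F => Finset.sum_const_zero
    rw [this, sub_zero, sub_zero]
  have h2 : ∀ F : (Gam l A).obj (j + 1), F.1.card < 2 →
      (c - hatK y - dF e1 : (Gam l A).obj (j + 1) → K) F = 0 := by
    intro F hF
    show c F - hatK y F - dF e1 F = 0
    rw [dF_hatS u hu]
    rcases card_lt_two C F hF with rfl | ⟨a, ha, b, hb, rfl⟩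
    · rw [h0, hatK_emp, hatS_emp, sub_zero, sub_zero]
    · rw [hatK_sgl y hb, hatS_sgl _ hb]
      have h3 := congrFun he' (⟨a, ha⟩, ⟨b, hb⟩)
      have h4 : dSh u (a, b) = (co K (T1 l A)).d j e' (⟨a, ha⟩, ⟨b, hb⟩) :=
        (T1_d e' (⟨a, ha⟩, ⟨b, hb⟩)).symm
      rw [h4, h3]
      show _ - _ - (c (sgl A a ha b) - c ((iz C A).app b)) = 0
      exact sub_self _
  obtain ⟨e2, h5, h6⟩ := gam_filt_succ l A h hj _ hc' h2
  refine ⟨y, e1 + e2, hy, hdy, ?_, ?_⟩
  · show hatS u (emp C A j) + e2 (emp C A j) = 0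
    rw [hatS_emp, h5 _ (by show (∅ : Finset (Sheet l B j)).card < 2; simp), add_zero]
  · rw [dF_add, h6]
    abel

theorem exists_hat_zero (C : LCon l) {n : ℕ} (h : (ch K (prt A)).Acy n) (hn : 0 < n)
    (c : (Gam l A).obj 0 → K) (hc : dF c = 0) (h0 : c (emp C A 0) = 0) :
    ∃ y : B.obj 0 → K, (∀ b, A.mem b → y b = 0) ∧ dF y = 0 ∧ c = hatK y := by
  have he' := CosMod.mem_Bd_zero.1 (one_sub_mem C c hc h0)
  let y : B.obj 0 → K := fun b => c ((iz C A).app b)
  have hy : ∀ b, A.mem b → y b = 0 := fun b hb => by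
    show c (sgl A (C.z 0) (C.z_good 0) b) = 0
    rw [sgl_of_mem C _ _ hb, h0]
  have hdy : dF y = 0 := by
    show dF (fun b => c ((iz C A).app b)) = 0
    rw [dF_comp, hc]
    rfl
  have hc' : dF (c - hatK y) = 0 := by
    rw [dF_sub, hc, dF_hatK y hy, hdy]
    have : (hatK (0 : B.obj (0 + 1) → K) : (Gam l A).obj (0 + 1) → K) = 0 :=
      funext fun F => Finset.sum_const_zero
    rw [this, sub_zero]
  have h2 : ∀ F : (Gam l A).obj 0, F.1.card < 2 →
      (c - hatK y : (Gam l A).obj 0 → K) F = 0 := by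
    intro F hF
    show c F - hatK y F = 0
    rcases card_lt_two C F hF with rfl | ⟨a, ha, b, hb, rfl⟩
    · rw [h0, hatK_emp, sub_zero]
    · rw [hatK_sgl y hb]
      exact congrFun he' (⟨a, ha⟩, ⟨b, hb⟩)
  have h3 := gam_filt_zero l A h hn _ hc' h2
  exact ⟨y, hy, hdy, sub_eq_zero.1 h3⟩

theorem alt_sum (m : ℕ) (x : K) : ∑ i ∈ Finset.range m, sn i x = if Even m then 0 else x := by
  induction m with
  | zero => simp
  | succ m ih =>
    rw [Finset.sum_range_succ, ih]
    rcases Nat.even_or_odd m with h | h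
    · rw [if_pos h, if_neg (by rw [Nat.even_add_one]; exact not_not.2 h), zero_add, sn,
        h.neg_one_pow, one_smul]
    · have h' : Even (m + 1) := h.add_one
      rw [if_neg (Nat.not_even_iff_odd.2 h), if_pos h', sn, h.neg_one_pow, neg_smul, one_smul,
        add_neg_cancel]

/-- **Every cocycle in the range is additive** up to coboundaries, positive degrees. -/
theorem exists_hat' (C : LCon l) {n j : ℕ} (h : (ch K (prt A)).Acy n) (hj : j + 1 < 2 * n)
    (c : (Gam l A).obj (j + 1) → K) (hc : dF c = 0) :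
    ∃ (y : B.obj (j + 1) → K) (e : (Gam l A).obj j → K), (∀ b, A.mem b → y b = 0) ∧ dF y = 0 ∧
      c = hatK y + dF e := by
  let κ : K := c (emp C A (j + 1))
  have h1 : ∑ i ∈ Finset.range (j + 1 + 2), sn i κ = 0 := by
    have h2 := congrFun hc (emp C A (j + 1 + 1))
    have h3 : dF c (emp C A (j + 1 + 1)) = ∑ i ∈ Finset.range (j + 1 + 2), sn i κ :=
      Finset.sum_congr rfl fun i _ => by rw [emp_map]
    rw [← h3, h2]
    rfl
  rw [alt_sum] at h1
  let f : (Gam l A).obj j → K := fun _ => κ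
  have hf : dF f (emp C A (j + 1)) = κ := by
    have h3 : dF f (emp C A (j + 1)) = ∑ i ∈ Finset.range (j + 2), sn i κ := rfl
    rw [h3, alt_sum]
    by_cases he : Even (j + 2)
    · rw [if_neg (by
        rw [show j + 1 + 2 = j + 2 + 1 by omega, Nat.even_add_one]
        exact not_not.2 he)] at h1
      rw [h1, ite_self]
    · rw [if_neg he]
  obtain ⟨y, e, hy, hdy, -, he⟩ := exists_hat C h hj (c - dF f) (by rw [dF_sub, hc, dF_dF, sub_zero])
    (by
      show c (emp C A (j + 1)) - dF f (emp C A (j + 1)) = 0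
      rw [hf, sub_self])
  refine ⟨y, e + f, hy, hdy, ?_⟩
  rw [dF_add, ← add_assoc, ← he, sub_add_cancel]

end field

end Vale.Agent.P263.GR
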