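import Vale.Agent.P263.GR.Part
import Vale.Agent.P263.E.Simp

/-!
# P263, block RNG: weight filtrations of simplicial sets (helper241)

`Wt X` : a weight on the simplices of `X` which does not increase under the simplicial operators;
`W.piece n` : the simplices of weight exactly `n`, a partial simplicial set.
`Wt.filt_succ` / `Wt.filt_zero` : if all pieces of weight `≥ a` are exact below `m`, then every
cocycle of degree `< m` which vanishes on the simplices of weight `< a` is the coboundary of a
cochain which vanishes on the simplices of weight `< a` (there may be infinitely many weights).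
`dF` is the coboundary of functions, as a plain function.
-/

namespace Vale.Agent.P263.GR

open Vale.Agent.P263.S Vale.Agent.P263.E

section dF

variable {R : Type} [CommRing R] {X : SS}

/-- the coboundary of a function on simplices -/
def dF {j : ℕ} (c : X.obj j → R) : X.obj (j + 1) → R := fun x =>
  ∑ i ∈ Finset.range (j + 2), sn i (c (X.map (dl j i) x))

theorem F_d_eq {j : ℕ} (c : X.obj j → R) : (SS.F R X).d j c = dF c :=
  funext fun x => SS.F_d (R := R) (X := X) c x

theorem dF_dF {j : ℕ} (c : X.obj j → R) : dF (dF c) = 0 := by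
  rw [← F_d_eq, ← F_d_eq]
  exact (SS.F R X).d_d j c

theorem dF_add {j : ℕ} (c e : X.obj j → R) : dF (c + e) = dF c + dF e := by
  rw [← F_d_eq, ← F_d_eq, ← F_d_eq]
  exact map_add ((SS.F R X).d j) c e

theorem dF_sub {j : ℕ} (c e : X.obj j → R) : dF (c - e) = dF c - dF e := by
  rw [← F_d_eq, ← F_d_eq, ← F_d_eq]
  exact map_sub ((SS.F R X).d j) c e

theorem dF_zero {j : ℕ} : dF (0 : X.obj j → R) = 0 := by
  rw [← F_d_eq]
  exact map_zero ((SS.F R X).d j)

theorem mem_Z_iff {j : ℕ} {c : X.obj j → R} : c ∈ (SS.F R X).Z j ↔ dF c = 0 := by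
  rw [← F_d_eq]
  exact Iff.rfl

theorem mem_Bd_iff {j : ℕ} {c : X.obj (j + 1) → R} :
    c ∈ (SS.F R X).Bd (j + 1) ↔ ∃ e : X.obj j → R, dF e = c := by
  constructor
  · rintro ⟨e, rfl⟩
    exact ⟨e, (F_d_eq e).symm⟩
  · rintro ⟨e, rfl⟩
    exact ⟨e, F_d_eq e⟩

end dF

/-- weights on a simplicial set -/
structure Wt (X : SS) where
  /-- the weight -/
  w : ∀ {p : ℕ}, X.obj p → ℕ
  map_le : ∀ {p q : ℕ} (f : Op p q) (x : X.obj q), w (X.map f x) ≤ w x

namespace Wt

variable {X : SS} (W : Wt X)

/-- the restriction of the simplicial operators -/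
def pmap (n : ℕ) {p q : ℕ} (f : Op p q) (x : {x : X.obj q // W.w x = n}) :
    Option {x : X.obj p // W.w x = n} :=
  if h : W.w (X.map f x.1) = n then some ⟨X.map f x.1, h⟩ else none

theorem pmap_pos {n p q : ℕ} {f : Op p q} {x : {x : X.obj q // W.w x = n}}
    (h : W.w (X.map f x.1) = n) : W.pmap n f x = some ⟨X.map f x.1, h⟩ := dif_pos h

theorem pmap_neg {n p q : ℕ} {f : Op p q} {x : {x : X.obj q // W.w x = n}}
    (h : W.w (X.map f x.1) ≠ n) : W.pmap n f x = none := dif_neg h

theorem pmap_comp {n p q r : ℕ} (f : Op q r) (g : Op p q) (x : {x : X.obj r // W.w x = n}) :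
    W.pmap n (f.comp g) x = (W.pmap n f x).bind (W.pmap n g) := by
  have e : X.map (f.comp g) x.1 = X.map g (X.map f x.1) := X.map_comp f g x.1
  by_cases h : W.w (X.map f x.1) = n
  · rw [W.pmap_pos h, Option.bind_some]
    by_cases h' : W.w (X.map g (X.map f x.1)) = n
    · rw [W.pmap_pos (by rw [e]; exact h'), W.pmap_pos (f := g) (x := ⟨X.map f x.1, h⟩) h']
      exact congrArg some (Subtype.ext e)
    · rw [W.pmap_neg (by rw [e]; exact h'), W.pmap_neg (f := g) (x := ⟨X.map f x.1, h⟩) h']
  · rw [W.pmap_neg h, W.pmap_neg]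
    · rfl
    · rw [e]
      intro h'
      have h1 := W.map_le g (X.map f x.1)
      have h2 := W.map_le f x.1
      have h3 := x.2
      omega

/-- the simplices of weight exactly `n` -/
@[reducible] def piece (n : ℕ) : PSS where
  obj p := {x : X.obj p // W.w x = n}
  map f x := W.pmap n f x
  map_id x := by
    have e : X.map OrderHom.id x.1 = x.1 := X.map_id x.1
    rw [W.pmap_pos (by rw [e]; exact x.2)]
    exact congrArg some (Subtype.ext e)
  map_comp f g x := W.pmap_comp f g x

variable {k : Type} [Field k]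

theorem pmap_elim {n p q : ℕ} (f : Op p q) (x : {x : X.obj q // W.w x = n})
    (e : {x : X.obj p // W.w x = n} → k) (c : X.obj p → k) (h0 : ∀ y, W.w y < n → c y = 0)
    (h1 : ∀ y (h : W.w y = n), c y = e ⟨y, h⟩) :
    (W.pmap n f x).elim 0 e = c (X.map f x.1) := by
  by_cases h : W.w (X.map f x.1) = n
  · rw [W.pmap_pos h]
    exact (h1 _ h).symm
  · rw [W.pmap_neg h]
    refine (h0 _ ?_).symm
    have h2 := W.map_le f x.1
    have h3 := x.2
    omega

/-- the coboundary of the functions on a piece -/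
theorem piece_d {n j : ℕ} (e : {x : X.obj j // W.w x = n} → k) (c : X.obj j → k)
    (h0 : ∀ y, W.w y < n → c y = 0) (h1 : ∀ y (h : W.w y = n), c y = e ⟨y, h⟩)
    (x : {x : X.obj (j + 1) // W.w x = n}) :
    (co k (W.piece n)).d j e x = dF c x.1 :=
  (co_d (T := W.piece n) e x).trans (Finset.sum_congr rfl fun i _ =>
    congrArg (sn i) (W.pmap_elim (dl j i) x e c h0 h1))

/-- cocycles restrict to cocycles of the pieces -/
theorem restr_mem_Z {n j : ℕ} (c : X.obj j → k) (hc : dF c = 0) (h0 : ∀ x, W.w x < n → c x = 0) :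
    (fun x : {x : X.obj j // W.w x = n} => c x.1) ∈ (co k (W.piece n)).Z j := by
  refine CosMod.mem_Z.2 (funext fun x => (W.piece_d _ c h0 (fun _ _ => rfl) x).trans ?_)
  rw [hc]
  rfl

/-- one step of the construction -/
theorem step {n m j : ℕ} (h : (ch k (W.piece n)).Acy m) (hj : j + 1 < m)
    (c : X.obj (j + 1) → k) (hc : dF c = 0) (h0 : ∀ x, W.w x < n → c x = 0) :
    ∃ e : X.obj j → k, (∀ x, W.w x ≠ n → e x = 0) ∧ ∀ x, W.w x = n → dF e x = c x := by
  classical
  obtain ⟨e, he⟩ := co_of_ch h (j + 1) hj (W.restr_mem_Z c hc h0)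
  let e' : X.obj j → k := fun x => if h : W.w x = n then e ⟨x, h⟩ else 0
  refine ⟨e', fun x hx => dif_neg hx, fun x hx => ?_⟩
  rw [← W.piece_d (n := n) e e' (fun y hy => dif_neg (by omega)) (fun y hy => dif_pos hy) ⟨x, hx⟩]
  exact congrFun he ⟨x, hx⟩

/-- **The filtration theorem** in degree `0`. -/
theorem filt_zero {a m : ℕ} (h : ∀ n, a ≤ n → (ch k (W.piece n)).Acy m) (hm : 0 < m)
    (c : X.obj 0 → k) (hc : dF c = 0) (h0 : ∀ x, W.w x < a → c x = 0) : c = 0 := by
  have key : ∀ n (x : X.obj 0), W.w x < n → c x = 0 := by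
    intro n
    induction n with
    | zero => exact fun x hx => absurd hx (Nat.not_lt_zero _)
    | succ n ih =>
      intro x hx
      by_cases hxn : W.w x < n
      · exact ih x hxn
      have hxn' : W.w x = n := by omega
      by_cases hna : n < a
      · exact h0 x (by omega)
      have := co_of_ch (h n (by omega)) 0 hm (W.restr_mem_Z c hc ih)
      exact congrFun (CosMod.mem_Bd_zero.1 this) ⟨x, hxn'⟩
  funext x
  exact key (W.w x + 1) x (Nat.lt_succ_self _)

/-- **The filtration theorem** in positive degrees. -/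
theorem filt_succ {a m j : ℕ} (h : ∀ n, a ≤ n → (ch k (W.piece n)).Acy m) (hj : j + 1 < m)
    (c : X.obj (j + 1) → k) (hc : dF c = 0) (h0 : ∀ x, W.w x < a → c x = 0) :
    ∃ e : X.obj j → k, (∀ x, W.w x < a → e x = 0) ∧ dF e = c := by
  classical
  have hst : ∀ (t : ℕ) (e : X.obj j → k), (∀ x, W.w x < a + t → dF e x = c x) →
      ∃ e' : X.obj j → k, (∀ x, W.w x ≠ a + t → e' x = 0) ∧
        ∀ x, W.w x < a + (t + 1) → dF (e + e') x = c x := by
    intro t e he
    obtain ⟨e', h1, h2⟩ := W.step (h (a + t) (by omega)) hj (c - dF e)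
      (by rw [dF_sub, hc, dF_dF, sub_zero]) (fun x hx => by
        show c x - dF e x = 0
        rw [he x hx, sub_self])
    refine ⟨e', h1, fun x hx => ?_⟩
    rw [dF_add]
    show dF e x + dF e' x = c x
    by_cases hx' : W.w x = a + t
    · rw [h2 x hx']
      show dF e x + (c x - dF e x) = c x
      rw [add_sub_cancel]
    · have h3 : dF e' x = 0 := by
        refine Finset.sum_eq_zero fun i _ => ?_
        rw [h1 _ (by
          have := W.map_le (dl j i) x
          omega), sn_zero_val]
      rw [h3, add_zero]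
      exact he x (by omega)
  choose! E hE1 hE2 using hst
  let G : (t : ℕ) → {e : X.obj j → k // ∀ x, W.w x < a + t → dF e x = c x} := fun t =>
    Nat.rec (motive := fun t => {e : X.obj j → k // ∀ x, W.w x < a + t → dF e x = c x})
      ⟨0, fun x hx => by
        rw [dF_zero, h0 x (by simpa using hx)]
        rfl⟩
      (fun t e => ⟨e.1 + E t e.1, hE2 t e.1 e.2⟩) t
  have hG : ∀ t x, (G (t + 1)).1 x = (G t).1 x + E t (G t).1 x := fun t x => rfl
  have hG0 : ∀ x, (G 0).1 x = 0 := fun x => rfl
  have hG1 : ∀ t x, W.w x < a → (G t).1 x = 0 := by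
    intro t x hx
    induction t with
    | zero => exact hG0 x
    | succ t ih =>
      rw [hG, ih, hE1 t (G t).1 (G t).2 x (by omega), add_zero]
  have hG2 : ∀ s t x, W.w x < a + s → (G (s + t)).1 x = (G s).1 x := by
    intro s t x hx
    induction t with
    | zero => rfl
    | succ t ih =>
      have h1 : (G (s + (t + 1))).1 x = (G (s + t)).1 x + E (s + t) (G (s + t)).1 x :=
        hG (s + t) x
      rw [h1, ih, hE1 (s + t) (G (s + t)).1 (G (s + t)).2 x (by omega), add_zero]
  let g : X.obj j → k := fun x => (G (W.w x + 1)).1 x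
  refine ⟨g, fun x hx => hG1 _ x hx, ?_⟩
  funext x
  have h1 := (G (W.w x + 1)).2 x (by omega)
  rw [← h1]
  refine Finset.sum_congr rfl fun i _ => ?_
  congr 1
  have h2 := W.map_le (dl j i) x
  have h3 := hG2 (W.w (X.map (dl j i) x) + 1) (W.w x - W.w (X.map (dl j i) x)) (X.map (dl j i) x)
    (by omega)
  rw [show W.w (X.map (dl j i) x) + 1 + (W.w x - W.w (X.map (dl j i) x)) = W.w x + 1 by
    omega] at h3
  exact h3.symm

end Wt

end Vale.Agent.P263.GR
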