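import Mathlib.LinearAlgebra.Prod
import Vale.Agent.P263.S.Core

/-!
# P263, block RNG: simplicial modules, exactness in a range, the path object (helper241)

`SMod R` : simplicial `R`-modules, hand-rolled (contravariant on the monotone maps `[p] → [q]`).
`V.bd p : V.obj (p+1) →ₗ V.obj p` is the alternating sum of the faces, `V.Acy m` says that the
homology vanishes in degrees `< m`, elementwise.
-/

namespace Vale.Agent.P263.GR

open Vale.Agent.P263.S

/-- Simplicial modules over `R`. -/
structure SMod (R : Type) [CommRing R] where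
  /-- the modules -/
  obj : ℕ → Type
  [grp : ∀ p, AddCommGroup (obj p)]
  [mod : ∀ p, Module R (obj p)]
  /-- the action of the monotone maps `[p] → [q]` -/
  map : ∀ {p q : ℕ}, Op p q → obj q →ₗ[R] obj p
  map_id : ∀ {p : ℕ}, map (OrderHom.id : Op p p) = LinearMap.id
  map_comp : ∀ {p q r : ℕ} (f : Op q r) (g : Op p q), map (f.comp g) = (map g).comp (map f)

attribute [instance] SMod.grp SMod.mod

variable {R : Type} [CommRing R]

namespace SMod

theorem map_id_apply (V : SMod R) {p : ℕ} (x : V.obj p) : V.map OrderHom.id x = x := by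
  rw [V.map_id]; rfl

theorem map_map (V : SMod R) {p q r : ℕ} (f : Op q r) (g : Op p q) (x : V.obj r) :
    V.map g (V.map f x) = V.map (f.comp g) x := by
  rw [V.map_comp]; rfl

/-- the boundary -/
def bd (V : SMod R) (p : ℕ) : V.obj (p + 1) →ₗ[R] V.obj p :=
  ∑ i ∈ Finset.range (p + 2), ((-1 : ℤ) ^ i) • V.map (dl p i)

theorem bd_apply (V : SMod R) (p : ℕ) (x : V.obj (p + 1)) :
    V.bd p x = ∑ i ∈ Finset.range (p + 2), sn i (V.map (dl p i) x) := by
  simp [bd, sn, LinearMap.sum_apply]

theorem bd_bd (V : SMod R) (p : ℕ) (x : V.obj (p + 2)) : V.bd p (V.bd (p + 1) x) = 0 := by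
  rw [bd_apply]
  have e : ∀ i ∈ Finset.range (p + 2), sn i (V.map (dl p i) (V.bd (p + 1) x)) =
      ∑ j ∈ Finset.range (p + 3), sn (j + i) (V.map ((dl (p + 1) j).comp (dl p i)) x) := by
    intro i _
    rw [bd_apply, map_sum, sn_sum]
    refine Finset.sum_congr rfl fun j _ => ?_
    rw [CosMod.sn_lin, sn_sn, V.map_map, add_comm]
  rw [Finset.sum_congr rfl e, Finset.sum_comm]
  exact CosMod.dd_sum (p + 1) (fun i j => V.map ((dl (p + 1) i).comp (dl p j)) x)
    fun i j hij _ => by rw [dl_dl hij]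

/-- cycles, elementwise -/
def Cyc (V : SMod R) : (p : ℕ) → V.obj p → Prop
  | 0, _ => True
  | p + 1, x => V.bd p x = 0

/-- the homology vanishes in degrees `< m` -/
def Acy (V : SMod R) (m : ℕ) : Prop := ∀ j, j < m → ∀ x : V.obj j, V.Cyc j x → ∃ y, V.bd j y = x

theorem acy_zero (V : SMod R) : V.Acy 0 := fun _ h => absurd h (Nat.not_lt_zero _)

theorem Acy.mono {V : SMod R} {m n : ℕ} (h : V.Acy m) (hn : n ≤ m) : V.Acy n :=
  fun j hj => h j (lt_of_lt_of_le hj hn)

theorem cyc_zero (V : SMod R) (x : V.obj 0) : V.Cyc 0 x := True.intro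

theorem cyc_succ {V : SMod R} {p : ℕ} {x : V.obj (p + 1)} : V.Cyc (p + 1) x ↔ V.bd p x = 0 :=
  Iff.rfl

theorem cyc_bd (V : SMod R) (p : ℕ) (x : V.obj (p + 1)) : V.Cyc p (V.bd p x) := by
  cases p with
  | zero => trivial
  | succ p => exact V.bd_bd p x

theorem Cyc.sub {V : SMod R} {p : ℕ} {x y : V.obj p} (hx : V.Cyc p x) (hy : V.Cyc p y) :
    V.Cyc p (x - y) := by
  cases p with
  | zero => trivial
  | succ p => rw [cyc_succ] at *; rw [map_sub, hx, hy, sub_zero]

/-- if the modules vanish in degrees `< m` then `V` is exact below `m` -/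
theorem acy_of_subsingleton {V : SMod R} {m : ℕ} (h : ∀ j, j < m → Subsingleton (V.obj j)) :
    V.Acy m := fun j hj x _ => ⟨0, (h j hj).elim _ _⟩

end SMod

/-- Maps of simplicial modules. -/
structure SHom (V W : SMod R) where
  /-- the components -/
  app : ∀ p, V.obj p →ₗ[R] W.obj p
  nat : ∀ {p q : ℕ} (f : Op p q) (x : V.obj q), app p (V.map f x) = W.map f (app q x)

namespace SHom

variable {V W : SMod R}

theorem app_bd (f : SHom V W) (p : ℕ) (x : V.obj (p + 1)) :
    f.app p (V.bd p x) = W.bd p (f.app (p + 1) x) := by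
  rw [SMod.bd_apply, SMod.bd_apply, map_sum]
  refine Finset.sum_congr rfl fun i _ => ?_
  rw [CosMod.sn_lin, f.nat]

theorem app_cyc (f : SHom V W) {p : ℕ} {x : V.obj p} (hx : V.Cyc p x) : W.Cyc p (f.app p x) := by
  cases p with
  | zero => trivial
  | succ p => rw [SMod.cyc_succ] at *; rw [← f.app_bd, hx, map_zero]

/-- exactness below `m` is inherited along levelwise bijections -/
theorem acy_of_bijective (f : SHom V W) (h : ∀ p, Function.Bijective (f.app p)) {m : ℕ}
    (hV : V.Acy m) : W.Acy m := by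
  intro j hj y hy
  obtain ⟨x, rfl⟩ := (h j).2 y
  have hx : V.Cyc j x := by
    cases j with
    | zero => trivial
    | succ j =>
      rw [SMod.cyc_succ] at *
      apply (h j).1
      rw [f.app_bd, hy, map_zero]
  obtain ⟨z, rfl⟩ := hV j hj x hx
  exact ⟨f.app _ z, (f.app_bd j z).symm⟩

end SHom

/-- Simplicial homotopies, as natural families indexed by the maps `[p] → [1]`. -/
structure SHtp (V W : SMod R) where
  /-- the family of maps -/
  h : ∀ p, Op p 1 → V.obj p →ₗ[R] W.obj p
  nat : ∀ {p q : ℕ} (α : Op p q) (θ : Op q 1) (x : V.obj q),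
    h p (θ.comp α) (V.map α x) = W.map α (h q θ x)

namespace SHtp

variable {V W : SMod R} (P : SHtp V W)

/-- the chain homotopy of a simplicial homotopy -/
def k (p : ℕ) : V.obj p →ₗ[R] W.obj (p + 1) :=
  ∑ i ∈ Finset.range (p + 1),
    ((-1 : ℤ) ^ i) • (P.h (p + 1) (th (p + 1) (i + 1))).comp (V.map (sg p i))

theorem k_apply (p : ℕ) (x : V.obj p) :
    P.k p x = ∑ i ∈ Finset.range (p + 1),
      sn i (P.h (p + 1) (th (p + 1) (i + 1)) (V.map (sg p i) x)) := by
  simp [k, sn, LinearMap.sum_apply]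

theorem bd_k (p : ℕ) (x : V.obj p) :
    W.bd p (P.k p x) = ∑ i ∈ Finset.range (p + 1), ∑ j ∈ Finset.range (p + 2),
      sn (i + j) (P.h p ((th (p + 1) (i + 1)).comp (dl p j))
        (V.map ((sg p i).comp (dl p j)) x)) := by
  rw [k_apply, map_sum]
  refine Finset.sum_congr rfl fun i _ => ?_
  rw [CosMod.sn_lin, W.bd_apply, sn_sum]
  refine Finset.sum_congr rfl fun j _ => ?_
  rw [sn_sn, ← P.nat, V.map_map]

/-- **The prism lemma** for simplicial modules, positive degrees. -/
theorem bd_k_add_k_bd (p : ℕ) (x : V.obj (p + 1)) :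
    W.bd (p + 1) (P.k (p + 1) x) + P.k p (V.bd p x) =
      P.h (p + 1) (th (p + 1) 0) x - P.h (p + 1) (th (p + 1) (p + 2)) x := by
  have e2 : P.k p (V.bd p x) = ∑ i ∈ Finset.range (p + 1), ∑ j ∈ Finset.range (p + 2),
      sn (i + j) (P.h (p + 1) (th (p + 1) (i + 1)) (V.map ((dl p j).comp (sg p i)) x)) := by
    rw [k_apply]
    refine Finset.sum_congr rfl fun i _ => ?_
    rw [V.bd_apply, map_sum, map_sum, sn_sum]
    refine Finset.sum_congr rfl fun j _ => ?_
    rw [CosMod.sn_lin, CosMod.sn_lin, sn_sn, V.map_map]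
  rw [bd_k, prism_sum (p + 1)
    (fun i j => P.h (p + 1) ((th (p + 1 + 1) (i + 1)).comp (dl (p + 1) j))
      (V.map ((sg (p + 1) i).comp (dl (p + 1) j)) x))
    (fun i j => P.h (p + 1) (th (p + 1) (i + 1)) (V.map ((dl p j).comp (sg p i)) x))
    (fun i => P.h (p + 1) (th (p + 1) i) x), e2]
  · show _ - _ - _ + _ = _
    rw [sub_add_cancel]
  · intro i j hi hj
    rw [sg_dl_lt (by omega) (by omega), th_dl_le (by omega), Nat.add_sub_cancel]
  · intro i hi
    rw [sg_dl_self hi, th_dl_le le_rfl, V.map_id_apply]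
  · intro i hi
    rw [sg_dl_succ hi, th_dl_gt le_rfl, V.map_id_apply]
  · intro i j hi hij hj
    rw [sg_dl_gt (by omega) (by omega), th_dl_gt (by omega), Nat.add_sub_cancel]

/-- **The prism lemma** for simplicial modules, degree `0`. -/
theorem bd_k_zero (x : V.obj 0) :
    W.bd 0 (P.k 0 x) = P.h 0 (th 0 0) x - P.h 0 (th 0 1) x := by
  have e : ∀ j, (sg 0 0).comp (dl 0 j) = OrderHom.id := by
    intro j
    apply OrderHom.ext
    funext y
    exact Subsingleton.elim (α := Fin 1) _ _
  have e1 : (th 1 1).comp (dl 0 0) = th 0 0 := by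
    apply OrderHom.ext
    funext y
    show th 1 1 (dl 0 0 y) = th 0 0 y
    rw [th_val, th_val, dl_val]
    simp
  have e2 : (th 1 1).comp (dl 0 1) = th 0 1 := by
    apply OrderHom.ext
    funext y
    show th 1 1 (dl 0 1 y) = th 0 1 y
    rw [th_val, th_val, dl_val]
    have := y.2
    simp
  rw [bd_k]
  simp only [zero_add, Finset.sum_range_succ, Finset.sum_range_zero, e, e1, e2, V.map_id_apply]
  rw [show sn 0 (P.h 0 (th 0 0) x) = P.h 0 (th 0 0) x by simp [sn],
    show sn 1 (P.h 0 (th 0 1) x) = - P.h 0 (th 0 1) x by simp [sn], sub_eq_add_neg]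

/-- the two ends of a homotopy agree on cycles up to boundaries -/
theorem exists_bd {p : ℕ} {x : V.obj p} (hx : V.Cyc p x) :
    ∃ y, W.bd p y = P.h p (th p 0) x - P.h p (th p (p + 1)) x := by
  cases p with
  | zero => exact ⟨P.k 0 x, P.bd_k_zero x⟩
  | succ p =>
    refine ⟨P.k (p + 1) x, ?_⟩
    rw [← P.bd_k_add_k_bd, SMod.cyc_succ.1 hx, map_zero, add_zero]

/-- a contracted simplicial module is exact -/
theorem acy {V : SMod R} (P : SHtp V V) (h1 : ∀ p x, P.h p (th p 0) x = x)
    (h0 : ∀ p x, P.h p (th p (p + 1)) x = 0) (m : ℕ) : V.Acy m := by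
  intro j _ x hx
  obtain ⟨y, hy⟩ := P.exists_bd hx
  exact ⟨y, by rw [hy, h1, h0, sub_zero]⟩

end SHtp

/-- short exact sequences of simplicial modules -/
structure SSES (A B C : SMod R) where
  i : SHom A B
  p : SHom B C
  inj : ∀ n, Function.Injective (i.app n)
  surj : ∀ n, Function.Surjective (p.app n)
  pi : ∀ n x, p.app n (i.app n x) = 0
  ex : ∀ n x, p.app n x = 0 → ∃ a, i.app n a = x

namespace SSES

variable {A B C : SMod R} (S : SSES A B C)

include S in
theorem cyc_of (n : ℕ) (a : A.obj n) (h : B.Cyc n (S.i.app n a)) : A.Cyc n a := by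
  cases n with
  | zero => trivial
  | succ n =>
    rw [SMod.cyc_succ] at *
    apply S.inj
    rw [S.i.app_bd, h, map_zero]

include S in
/-- the quotient of an exact object by an object exact below `m` is exact below `m + 1` -/
theorem acy_quot {m : ℕ} (hB : B.Acy (m + 1)) (hA : A.Acy m) : C.Acy (m + 1) := by
  intro j hj z hz
  obtain ⟨y, rfl⟩ := S.surj j z
  cases j with
  | zero =>
    obtain ⟨w, hw⟩ := hB 0 hj y (B.cyc_zero y)
    exact ⟨S.p.app _ w, by rw [← S.p.app_bd, hw]⟩
  | succ j =>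
    rw [SMod.cyc_succ, ← S.p.app_bd] at hz
    obtain ⟨a, ha⟩ := S.ex _ _ hz
    have hac : A.Cyc j a := S.cyc_of j a (by rw [ha]; exact B.cyc_bd j y)
    obtain ⟨u, hu⟩ := hA j (by omega) a hac
    have h1 : B.Cyc (j + 1) (y - S.i.app _ u) := by
      rw [SMod.cyc_succ, map_sub, ← S.i.app_bd, hu, ha, sub_self]
    obtain ⟨w, hw⟩ := hB (j + 1) hj _ h1
    refine ⟨S.p.app _ w, ?_⟩
    rw [← S.p.app_bd, hw, map_sub, S.pi, sub_zero]

include S in
/-- the kernel -/
theorem acy_ker {m : ℕ} (hB : B.Acy m) (hC : C.Acy (m + 1)) : A.Acy m := by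
  intro j hj z hz
  obtain ⟨w, hw⟩ := hB j hj _ (S.i.app_cyc hz)
  have h1 : C.Cyc (j + 1) (S.p.app _ w) := by
    rw [SMod.cyc_succ, ← S.p.app_bd, hw, S.pi]
  obtain ⟨u, hu⟩ := hC (j + 1) (by omega) _ h1
  obtain ⟨u', rfl⟩ := S.surj _ u
  obtain ⟨a, ha⟩ := S.ex (j + 1) (w - B.bd _ u') (by rw [map_sub, S.p.app_bd, hu, sub_self])
  refine ⟨a, S.inj _ ?_⟩
  rw [S.i.app_bd, ha, map_sub, hw, B.bd_bd, sub_zero]

include S in
/-- the middle term -/
theorem acy_mid {m : ℕ} (hA : A.Acy m) (hC : C.Acy m) : B.Acy m := by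
  intro j hj z hz
  obtain ⟨w, hw⟩ := hC j hj _ (S.p.app_cyc hz)
  obtain ⟨w', rfl⟩ := S.surj _ w
  obtain ⟨a, ha⟩ := S.ex j (z - B.bd _ w') (by rw [map_sub, S.p.app_bd, hw, sub_self])
  have hac : A.Cyc j a := S.cyc_of j a (by rw [ha]; exact hz.sub (B.cyc_bd _ _))
  obtain ⟨u, hu⟩ := hA j hj a hac
  refine ⟨w' + S.i.app _ u, ?_⟩
  rw [map_add, ← S.i.app_bd, hu, ha]
  abel

end SSES

/-! ### the path object -/

/-- the cone of a monotone map: a new smallest element is added on both sides -/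
def cone {p q : ℕ} (f : Op p q) : Op (p + 1) (q + 1) where
  toFun := Fin.cases 0 fun i => (f i).succ
  monotone' x y h := by
    induction x using Fin.cases with
    | zero => exact Fin.zero_le _
    | succ x =>
      induction y using Fin.cases with
      | zero => exact absurd h (by simp)
      | succ y => simpa using f.monotone (by simpa using h)

@[simp] theorem cone_zero {p q : ℕ} (f : Op p q) : cone f 0 = 0 := rfl

@[simp] theorem cone_succ {p q : ℕ} (f : Op p q) (i : Fin (p + 1)) :
    cone f i.succ = (f i).succ := rfl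

theorem op_ext {p q : ℕ} {f g : Op (p + 1) q} (h0 : f 0 = g 0)
    (h : ∀ i : Fin (p + 1), f i.succ = g i.succ) : f = g := by
  apply OrderHom.ext
  funext x
  induction x using Fin.cases with
  | zero => exact h0
  | succ x => exact h x

theorem cone_id (p : ℕ) : cone (OrderHom.id : Op p p) = OrderHom.id := op_ext rfl fun _ => rfl

theorem cone_comp {p q r : ℕ} (f : Op q r) (g : Op p q) :
    cone (f.comp g) = (cone f).comp (cone g) := op_ext rfl fun _ => rfl

/-- the first vertex -/
def v0 (p : ℕ) : Op 0 p := ⟨fun _ => 0, fun _ _ _ => le_rfl⟩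

theorem cone_v0 {p q : ℕ} (f : Op p q) : (cone f).comp (v0 (p + 1)) = v0 (q + 1) := rfl

theorem dl_zero (p : ℕ) (x : Fin (p + 1)) : dl p 0 x = x.succ := by
  ext; simp [dl_val]

theorem cone_dl {p q : ℕ} (f : Op p q) : (cone f).comp (dl p 0) = (dl q 0).comp f := by
  apply OrderHom.ext
  funext x
  show cone f (dl p 0 x) = dl q 0 (f x)
  rw [dl_zero, dl_zero, cone_succ]

/-- the contraction maps -/
def ct {p : ℕ} (θ : Op p 1) : Op (p + 1) (p + 1) where
  toFun := Fin.cases 0 fun i => if θ i = 0 then 0 else i.succ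
  monotone' x y h := by
    induction x using Fin.cases with
    | zero => exact Fin.zero_le _
    | succ x =>
      induction y using Fin.cases with
      | zero => exact absurd h (by simp)
      | succ y =>
        have hxy : x ≤ y := by simpa using h
        show (if θ x = 0 then (0 : Fin (p + 2)) else x.succ) ≤ if θ y = 0 then 0 else y.succ
        by_cases hx : θ x = 0
        · rw [if_pos hx]; exact Fin.zero_le _
        · have hy : θ y ≠ 0 := by
            intro hy
            have := θ.monotone hxy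
            rw [hy] at this
            exact hx (le_antisymm this (Fin.zero_le _))
          rw [if_neg hx, if_neg hy]
          simpa using hxy

@[simp] theorem ct_zero {p : ℕ} (θ : Op p 1) : ct θ 0 = 0 := rfl

theorem ct_succ {p : ℕ} (θ : Op p 1) (i : Fin (p + 1)) :
    ct θ i.succ = if θ i = 0 then 0 else i.succ := rfl

theorem ct_v0 {p : ℕ} (θ : Op p 1) : (ct θ).comp (v0 (p + 1)) = v0 (p + 1) := rfl

theorem ct_cone {p q : ℕ} (α : Op p q) (θ : Op q 1) :
    (cone α).comp (ct (θ.comp α)) = (ct θ).comp (cone α) := by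
  refine op_ext rfl fun i => ?_
  show cone α (ct (θ.comp α) i.succ) = ct θ (cone α i.succ)
  rw [ct_succ, cone_succ, ct_succ]
  show cone α (if θ (α i) = 0 then 0 else i.succ) = _
  by_cases h : θ (α i) = 0
  · rw [if_pos h, if_pos h]; rfl
  · rw [if_neg h, if_neg h]; rfl

theorem ct_one (p : ℕ) : ct (th p 0) = OrderHom.id := by
  refine op_ext rfl fun i => ?_
  rw [ct_succ, th_val, if_neg (Nat.not_lt_zero _), if_neg (by decide)]
  rfl

/-- the constant map `[p] → [0]` -/
def tp (p : ℕ) : Op p 0 := ⟨fun _ => 0, fun _ _ _ => le_rfl⟩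

theorem ct_last (p : ℕ) : ct (th p (p + 1)) = (v0 (p + 1)).comp (tp (p + 1)) := by
  refine op_ext rfl fun i => ?_
  rw [ct_succ, th_val, if_pos i.2, if_pos rfl]
  rfl

namespace SMod

variable (V : SMod R)

theorem map_v0_cone {p q : ℕ} (f : Op p q) {x : V.obj (q + 1)} (hx : V.map (v0 (q + 1)) x = 0) :
    V.map (v0 (p + 1)) (V.map (cone f) x) = 0 := by
  rw [V.map_map, cone_v0, hx]

theorem map_dl_cone {p q : ℕ} (f : Op p q) (x : V.obj (q + 1)) :
    V.map (dl p 0) (V.map (cone f) x) = V.map f (V.map (dl q 0) x) := by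
  rw [V.map_map, V.map_map, cone_dl]

theorem map_v0_ct {p : ℕ} (θ : Op p 1) {x : V.obj (p + 1)} (hx : V.map (v0 (p + 1)) x = 0) :
    V.map (v0 (p + 1)) (V.map (ct θ) x) = 0 := by
  rw [V.map_map, ct_v0, hx]

theorem map_ct_last {p : ℕ} {x : V.obj (p + 1)} (hx : V.map (v0 (p + 1)) x = 0) :
    V.map (ct (th p (p + 1))) x = 0 := by
  rw [ct_last, ← V.map_map, hx, map_zero]

theorem map_ct_cone {p q : ℕ} (α : Op p q) (θ : Op q 1) (x : V.obj (q + 1)) :
    V.map (ct (θ.comp α)) (V.map (cone α) x) = V.map (cone α) (V.map (ct θ) x) := by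
  rw [V.map_map, V.map_map, ct_cone]

/-- the carrier of the path object -/
abbrev pathObj (p : ℕ) : Submodule R (V.obj (p + 1)) := LinearMap.ker (V.map (v0 (p + 1)))

/-- the carrier of the loop object -/
abbrev loopObj (p : ℕ) : Submodule R (V.obj (p + 1)) :=
  LinearMap.ker (V.map (v0 (p + 1))) ⊓ LinearMap.ker (V.map (dl p 0))

theorem map_cone_mem_path {p q : ℕ} (f : Op p q) (x : V.obj (q + 1)) (hx : x ∈ V.pathObj q) :
    V.map (cone f) x ∈ V.pathObj p := V.map_v0_cone f hx

theorem map_cone_mem_loop {p q : ℕ} (f : Op p q) (x : V.obj (q + 1)) (hx : x ∈ V.loopObj q) :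
    V.map (cone f) x ∈ V.loopObj p := by
  refine Submodule.mem_inf.2 ⟨V.map_v0_cone f hx.1, LinearMap.mem_ker.2 ?_⟩
  rw [map_dl_cone, LinearMap.mem_ker.1 hx.2, map_zero]

/-- the path object -/
def path : SMod R where
  obj p := V.pathObj p
  map {p q} f := (V.map (cone f)).restrict (V.map_cone_mem_path f)
  map_id := by
    intro p
    refine LinearMap.ext fun x => Subtype.ext ?_
    rw [LinearMap.restrict_coe_apply, cone_id, V.map_id_apply]
    rfl
  map_comp f g := by
    refine LinearMap.ext fun x => Subtype.ext ?_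
    rw [LinearMap.restrict_coe_apply, cone_comp, ← V.map_map]
    rfl

/-- the loop object -/
def loop : SMod R where
  obj p := V.loopObj p
  map {p q} f := (V.map (cone f)).restrict (V.map_cone_mem_loop f)
  map_id := by
    intro p
    refine LinearMap.ext fun x => Subtype.ext ?_
    rw [LinearMap.restrict_coe_apply, cone_id, V.map_id_apply]
    rfl
  map_comp f g := by
    refine LinearMap.ext fun x => Subtype.ext ?_
    rw [LinearMap.restrict_coe_apply, cone_comp, ← V.map_map]
    rfl

/-- the end point map of the path object -/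
def pathEnd : SHom V.path V where
  app p := (V.map (dl p 0)).comp (V.pathObj p).subtype
  nat f _ := V.map_dl_cone f _

/-- the inclusion of the loop object -/
def loopInc : SHom V.loop V.path where
  app _ := Submodule.inclusion inf_le_left
  nat _ _ := rfl

/-- the contraction of the path object -/
def pathHtp : SHtp V.path V.path where
  h p θ := (V.map (ct θ)).restrict (p := V.pathObj p) (q := V.pathObj p)
    fun _ hx => V.map_v0_ct θ hx
  nat α θ _ := Subtype.ext (V.map_ct_cone α θ _)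

theorem map_ct_one {p : ℕ} (x : V.obj (p + 1)) : V.map (ct (th p 0)) x = x := by
  rw [ct_one, V.map_id_apply]

theorem pathHtp_one (p : ℕ) (x : V.path.obj p) : V.pathHtp.h p (th p 0) x = x :=
  Subtype.ext (V.map_ct_one x.1)

theorem pathHtp_zero (p : ℕ) (x : V.path.obj p) : V.pathHtp.h p (th p (p + 1)) x = 0 :=
  Subtype.ext (V.map_ct_last x.2)

theorem path_acy (m : ℕ) : V.path.Acy m :=
  V.pathHtp.acy V.pathHtp_one V.pathHtp_zero m

theorem pathEnd_surjective (hV : V.Acy 1) (p : ℕ) : Function.Surjective (V.pathEnd.app p) := by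
  intro y
  have hm : V.map (v0 p) y = V.map (v0 p) y := rfl
  obtain ⟨w, hw⟩ := hV 0 Nat.zero_lt_one (V.map (v0 p) y) (V.cyc_zero _)
  -- `w : V.obj 1` with `d₀ w - d₁ w = v0 y`
  have hw' : V.map (dl 0 0) w - V.map (dl 0 1) w = V.map (v0 p) y := by
    rw [← hw, bd_apply]
    simp [Finset.sum_range_succ, sn, sub_eq_add_neg]
  let c : V.obj (p + 1) := V.map (tp (p + 1)) (V.map (dl 0 0) w) - V.map (th (p + 1) 1) w
  have hc0 : V.map (dl p 0) c = 0 := by
    show V.map (dl p 0) (_ - _) = 0
    rw [map_sub, V.map_map, V.map_map, V.map_map, sub_eq_zero]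
    congr 1
  have hcv : V.map (v0 (p + 1)) c = V.map (v0 p) y := by
    show V.map (v0 (p + 1)) (_ - _) = _
    have e1 : (dl 0 0).comp ((tp (p + 1)).comp (v0 (p + 1))) = dl 0 0 := by
      apply OrderHom.ext
      funext x
      rw [Subsingleton.elim (α := Fin 1) x 0]
      rfl
    have e2 : (th (p + 1) 1).comp (v0 (p + 1)) = dl 0 1 := by
      apply OrderHom.ext
      funext x
      rw [Subsingleton.elim (α := Fin 1) x 0]
      rfl
    rw [map_sub, V.map_map, V.map_map, V.map_map, ← hw', e1, e2]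
  have hs0 : V.map (dl p 0) (V.map (sg p 0) y) = y := by
    rw [V.map_map]
    have : (sg p 0).comp (dl p 0) = OrderHom.id := by
      apply OrderHom.ext
      funext x
      apply Fin.ext
      show (sg p 0 (dl p 0 x)).1 = x.1
      rw [sg_val, dl_val]
      simp
    rw [this, V.map_id_apply]
  have hsv : V.map (v0 (p + 1)) (V.map (sg p 0) y) = V.map (v0 p) y := by
    rw [V.map_map]
    congr 1
  refine ⟨⟨V.map (sg p 0) y - c, ?_⟩, ?_⟩
  · rw [LinearMap.mem_ker, map_sub, hsv, hcv, sub_self]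
  · show V.map (dl p 0) (V.map (sg p 0) y - c) = y
    rw [map_sub, hs0, hc0, sub_zero]

/-- the path fibration -/
def pathSES (hV : V.Acy 1) : SSES V.loop V.path V where
  i := V.loopInc
  p := V.pathEnd
  inj _ := Submodule.inclusion_injective inf_le_left
  surj := V.pathEnd_surjective hV
  pi _ x := x.2.2
  ex _ x hx := ⟨⟨x.1, x.2, hx⟩, rfl⟩

theorem loop_acy {m : ℕ} (hV : V.Acy (m + 1)) : V.loop.Acy m :=
  (V.pathSES (hV.mono (by omega))).acy_ker (V.path_acy m) hV

end SMod

end Vale.Agent.P263.GR
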