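import Mathlib.LinearAlgebra.TensorProduct.RightExactness
import Mathlib.RingTheory.Flat.Basic
import Mathlib.LinearAlgebra.Basis.VectorSpace
import Vale.Agent.P263.GR.SMod

/-!
# P263, block RNG: the Kuenneth theorem in the lowest degree (helper241)

For simplicial vector spaces `V`, `W` over a field with vanishing homology in degrees `< a`,
resp. `< b`, the levelwise tensor product has vanishing homology in degrees `< a + b`.
No Eilenberg-Zilber theorem is used: dimension shift along the path objects.
-/

open scoped TensorProduct

namespace Vale.Agent.P263.GR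

open Vale.Agent.P263.S

section ring

variable {R : Type} [CommRing R]

/-- The levelwise tensor product. -/
def tens (V W : SMod R) : SMod R where
  obj p := V.obj p ⊗[R] W.obj p
  map f := TensorProduct.map (V.map f) (W.map f)
  map_id := by
    intro p
    rw [V.map_id, W.map_id, TensorProduct.map_id]
  map_comp f g := by
    rw [V.map_comp, W.map_comp, TensorProduct.map_comp]

theorem tens_map_tmul (V W : SMod R) {p q : ℕ} (f : Op p q) (a : V.obj q) (b : W.obj q) :
    (tens V W).map f (a ⊗ₜ b) = V.map f a ⊗ₜ[R] W.map f b := rfl

/-- the tensor product of a map with the identity -/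
def SHom.tensR {V V' : SMod R} (f : SHom V V') (W : SMod R) : SHom (tens V W) (tens V' W) where
  app p := TensorProduct.map (f.app p) LinearMap.id
  nat {p q} α x := by
    have h : (TensorProduct.map (f.app p) LinearMap.id).comp
          (TensorProduct.map (V.map α) (W.map α))
        = (TensorProduct.map (V'.map α) (W.map α)).comp
          (TensorProduct.map (f.app q) LinearMap.id) := by
      rw [← TensorProduct.map_comp, ← TensorProduct.map_comp]
      congr 1
      exact LinearMap.ext (f.nat α)
    exact LinearMap.congr_fun h x

/-- a homotopy on the first factor -/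
def SHtp.tensR {V V' : SMod R} (P : SHtp V V') (W : SMod R) : SHtp (tens V W) (tens V' W) where
  h p θ := TensorProduct.map (P.h p θ) LinearMap.id
  nat {p q} α θ x := by
    have h : (TensorProduct.map (P.h p (θ.comp α)) LinearMap.id).comp
          (TensorProduct.map (V.map α) (W.map α))
        = (TensorProduct.map (V'.map α) (W.map α)).comp
          (TensorProduct.map (P.h q θ) LinearMap.id) := by
      rw [← TensorProduct.map_comp, ← TensorProduct.map_comp]
      congr 1
      exact LinearMap.ext (P.nat α θ)
    exact LinearMap.congr_fun h x

/-- the symmetry -/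
def tensComm (V W : SMod R) : SHom (tens V W) (tens W V) where
  app p := (TensorProduct.comm R (V.obj p) (W.obj p)).toLinearMap
  nat {p q} α x := by
    have h : (TensorProduct.comm R (V.obj p) (W.obj p)).toLinearMap.comp
          (TensorProduct.map (V.map α) (W.map α))
        = (TensorProduct.map (W.map α) (V.map α)).comp
          (TensorProduct.comm R (V.obj q) (W.obj q)).toLinearMap := by
      apply TensorProduct.ext'
      intro a b
      rfl
    exact LinearMap.congr_fun h x

theorem tensComm_bijective (V W : SMod R) (p : ℕ) :
    Function.Bijective ((tensComm V W).app p) :=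
  (TensorProduct.comm R (V.obj p) (W.obj p)).bijective

theorem acy_tens_comm {V W : SMod R} {m : ℕ} (h : (tens V W).Acy m) : (tens W V).Acy m :=
  (tensComm V W).acy_of_bijective (tensComm_bijective V W) h

/-- `V` contractible implies `V ⊗ W` contractible -/
theorem tens_acy_of_htp {V : SMod R} (P : SHtp V V) (h1 : ∀ p x, P.h p (th p 0) x = x)
    (h0 : ∀ p x, P.h p (th p (p + 1)) x = 0) (W : SMod R) (m : ℕ) : (tens V W).Acy m := by
  refine (P.tensR W).acy ?_ ?_ m
  · intro p x
    have : P.h p (th p 0) = LinearMap.id := LinearMap.ext (h1 p)
    show TensorProduct.map (P.h p (th p 0)) LinearMap.id x = x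
    rw [this, TensorProduct.map_id]
    rfl
  · intro p x
    have : P.h p (th p (p + 1)) = 0 := LinearMap.ext (h0 p)
    show TensorProduct.map (P.h p (th p (p + 1))) LinearMap.id x = 0
    rw [this, TensorProduct.map_zero_left]
    rfl

end ring

variable {k : Type} [Field k]

/-- tensoring a short exact sequence -/
def SSES.tensR {A B C : SMod k} (S : SSES A B C) (W : SMod k) :
    SSES (tens A W) (tens B W) (tens C W) where
  i := S.i.tensR W
  p := S.p.tensR W
  inj n := Module.Flat.rTensor_preserves_injective_linearMap (M := W.obj n) (S.i.app n) (S.inj n)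
  surj n := LinearMap.rTensor_surjective (W.obj n) (S.surj n)
  pi n x := by
    have h : ((S.p.app n).rTensor (W.obj n)).comp ((S.i.app n).rTensor (W.obj n)) = 0 := by
      rw [← LinearMap.rTensor_comp]
      have : (S.p.app n).comp (S.i.app n) = 0 := LinearMap.ext (S.pi n)
      rw [this, LinearMap.rTensor_zero]
    exact LinearMap.congr_fun h x
  ex n x hx := by
    have hex : Function.Exact (S.i.app n) (S.p.app n) := fun y =>
      ⟨fun h => S.ex n y h, by rintro ⟨z, rfl⟩; exact S.pi n z⟩
    exact (rTensor_exact (W.obj n) hex (S.surj n) x).1 hx

/-- the dimension shift -/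
theorem tens_acy_step {V W : SMod k} {m : ℕ} (hV : V.Acy 1) (h : (tens V.loop W).Acy m) :
    (tens V W).Acy (m + 1) :=
  ((V.pathSES hV).tensR W).acy_quot (tens_acy_of_htp V.pathHtp V.pathHtp_one V.pathHtp_zero W _) h

theorem tens_acy_left {b : ℕ} : ∀ {V : SMod k} (_ : V.Acy b) (W : SMod k), (tens V W).Acy b := by
  induction b with
  | zero => exact fun _ W => SMod.acy_zero _
  | succ b ih =>
    intro V hV W
    exact tens_acy_step (hV.mono (by omega)) (ih (V.loop_acy hV) W)

/-- **The Kuenneth theorem in the lowest degree** for the levelwise tensor product of simplicial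
vector spaces. -/
theorem tens_acy {a b : ℕ} : ∀ {V W : SMod k} (_ : V.Acy a) (_ : W.Acy b),
    (tens V W).Acy (a + b) := by
  induction a with
  | zero =>
    intro V W _ hW
    rw [Nat.zero_add]
    exact acy_tens_comm (tens_acy_left hW V)
  | succ a ih =>
    intro V W hV hW
    have := tens_acy_step (hV.mono (by omega)) (ih (V.loop_acy hV) hW)
    rwa [show a + 1 + b = a + b + 1 by omega]

end Vale.Agent.P263.GR
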