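import Mathlib.LinearAlgebra.DirectSum.Finsupp
import Mathlib.LinearAlgebra.Dual.Lemmas
import Mathlib.Algebra.Group.Defs
import Vale.Agent.P263.GR.Kun

/-!
# P263, block RNG: partial simplicial sets, chains, functions, free actions (helper241)

`PSS` : partial simplicial sets, i.e. simplicial sets minus a sub simplicial set (equivalently
pointed simplicial sets without the base simplices): a monotone map acts by a partial function.
`ch R T : SMod R` the (relative) chains, `co R T : CosMod R` the (relative) functions,
`T.smash T'` the smash product with `ch (T.smash T') = tens (ch T) (ch T')`.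
`acy_orbit` : if a group acts freely and naturally on `T`, then exactness of the chains of `T` below
`m` implies exactness below `m` of the chains of the orbits.
-/

open scoped TensorProduct

namespace Vale.Agent.P263.GR

open Vale.Agent.P263.S

/-- Partial simplicial sets. -/
structure PSS where
  /-- the simplices -/
  obj : ℕ → Type
  /-- the partial action of the monotone maps `[p] → [q]` -/
  map : ∀ {p q : ℕ}, Op p q → obj q → Option (obj p)
  map_id : ∀ {p : ℕ} (x : obj p), map (OrderHom.id : Op p p) x = some x
  map_comp : ∀ {p q r : ℕ} (f : Op q r) (g : Op p q) (x : obj r),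
    map (f.comp g) x = (map f x).bind (map g)

section lin

variable {R : Type} [CommRing R]

/-- the basis vector of a defined element, zero otherwise -/
noncomputable def optS (R : Type) [CommRing R] {X : Type} (o : Option X) : X →₀ R :=
  o.elim 0 fun x => Finsupp.single x 1

@[simp] theorem optS_none {X : Type} : optS R (none : Option X) = 0 := rfl

@[simp] theorem optS_some {X : Type} (x : X) : optS R (some x) = Finsupp.single x 1 := rfl

/-- the linear map of a partial function -/
noncomputable def chMap (R : Type) [CommRing R] {X Y : Type} (f : X → Option Y) :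
    (X →₀ R) →ₗ[R] (Y →₀ R) := Finsupp.linearCombination R fun x => optS R (f x)

@[simp] theorem chMap_single {X Y : Type} (f : X → Option Y) (x : X) :
    chMap R f (Finsupp.single x 1) = optS R (f x) := by
  rw [chMap, Finsupp.linearCombination_single, one_smul]

theorem chMap_optS {X Y : Type} (f : X → Option Y) (o : Option X) :
    chMap R f (optS R o) = optS R (o.bind f) := by
  cases o with
  | none => simp
  | some x => simp

theorem fin_ext {X : Type} {M : Type*} [AddCommGroup M] [Module R M]
    {f g : (X →₀ R) →ₗ[R] M}
    (h : ∀ x, f (Finsupp.single x 1) = g (Finsupp.single x 1)) : f = g :=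
  Finsupp.lhom_ext' fun x => LinearMap.ext_ring (h x)

/-- the evaluation of a function on chains -/
noncomputable def ev {X : Type} (c : X → R) : (X →₀ R) →ₗ[R] R := Finsupp.linearCombination R c

@[simp] theorem ev_single {X : Type} (c : X → R) (x : X) : ev c (Finsupp.single x 1) = c x := by
  rw [ev, Finsupp.linearCombination_single, one_smul]

theorem ev_optS {X : Type} (c : X → R) (o : Option X) : ev c (optS R o) = o.elim 0 c := by
  cases o with
  | none => simp
  | some x => simp

theorem ev_inj {X : Type} {c c' : X → R} (h : ev c = ev c') : c = c' := by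
  funext x
  rw [← ev_single c, h, ev_single]

theorem ev_mk {X : Type} (φ : (X →₀ R) →ₗ[R] R) : ev (fun x => φ (Finsupp.single x 1)) = φ :=
  fin_ext fun x => by rw [ev_single]

end lin

variable (R : Type) [CommRing R]

/-- the chains of a partial simplicial set -/
noncomputable def ch (T : PSS) : SMod R where
  obj p := T.obj p →₀ R
  map f := chMap R (T.map f)
  map_id := by
    intro p
    refine fin_ext fun x => ?_
    rw [chMap_single, T.map_id, optS_some]
    rfl
  map_comp f g := by
    refine fin_ext fun x => ?_
    rw [chMap_single, T.map_comp, LinearMap.comp_apply, chMap_single, chMap_optS]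

/-- the functions on a partial simplicial set -/
def co (T : PSS) : CosMod R where
  obj p := T.obj p → R
  map {p q} f :=
    { toFun := fun c x => (T.map f x).elim 0 c
      map_add' := fun c c' => by
        funext x
        show (T.map f x).elim 0 (c + c') = (T.map f x).elim 0 c + (T.map f x).elim 0 c'
        cases T.map f x with
        | none => simp
        | some y => rfl
      map_smul' := fun r c => by
        funext x
        show (T.map f x).elim 0 (r • c) = r • (T.map f x).elim 0 c
        cases T.map f x with
        | none => simp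
        | some y => rfl }
  map_id := by
    intro p
    refine LinearMap.ext fun c => funext fun x => ?_
    show (T.map OrderHom.id x).elim 0 c = c x
    rw [T.map_id]
    rfl
  map_comp f g := by
    refine LinearMap.ext fun c => funext fun x => ?_
    show (T.map (f.comp g) x).elim 0 c = (T.map f x).elim 0 fun y => (T.map g y).elim 0 c
    rw [T.map_comp]
    cases T.map f x with
    | none => rfl
    | some y => rfl

variable {R}

theorem co_map {T : PSS} {p q : ℕ} (f : Op p q) (c : (co R T).obj p) (x : T.obj q) :
    (co R T).map f c x = (T.map f x).elim 0 c := rfl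

/-- the evaluation of a function on chains -/
noncomputable def evc {T : PSS} {p : ℕ} (c : (co R T).obj p) : (ch R T).obj p →ₗ[R] R :=
  ev (X := T.obj p) c

/-- the basis elements -/
noncomputable def bas (R : Type) [CommRing R] {T : PSS} {p : ℕ} (x : T.obj p) : (ch R T).obj p :=
  Finsupp.single x 1

/-- linear maps on chains agree if they agree on the basis -/
theorem ch_ext {T : PSS} {p : ℕ} {M : Type*} [AddCommGroup M] [Module R M]
    {f g : (ch R T).obj p →ₗ[R] M} (h : ∀ x : T.obj p, f (bas R x) = g (bas R x)) : f = g :=
  fin_ext h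

theorem evc_bas {T : PSS} {p : ℕ} (c : (co R T).obj p) (x : T.obj p) : evc c (bas R x) = c x :=
  ev_single (X := T.obj p) c x

theorem evc_inj {T : PSS} {p : ℕ} {c c' : (co R T).obj p} (h : evc c = evc c') : c = c' :=
  ev_inj (X := T.obj p) h

/-- the function of a linear form on chains -/
noncomputable def mkc {T : PSS} {p : ℕ} (φ : (ch R T).obj p →ₗ[R] R) : (co R T).obj p :=
  fun x => φ (bas R x)

theorem evc_mk {T : PSS} {p : ℕ} (φ : (ch R T).obj p →ₗ[R] R) : evc (mkc φ) = φ :=
  ev_mk (X := T.obj p) φ

theorem evc_zero {T : PSS} {p : ℕ} (y : (ch R T).obj p) : evc (0 : (co R T).obj p) y = 0 := by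
  have : evc (0 : (co R T).obj p) = 0 := ch_ext fun x => by rw [evc_bas]; rfl
  rw [this]; rfl

theorem map_bas {T : PSS} {p q : ℕ} (f : Op p q) (x : T.obj q) :
    (ch R T).map f (bas R x) = optS R (T.map f x) := chMap_single (T.map f) x

theorem evc_map {T : PSS} {p q : ℕ} (f : Op p q) (c : (co R T).obj p) (y : (ch R T).obj q) :
    evc ((co R T).map f c) y = evc c ((ch R T).map f y) := by
  have h : evc ((co R T).map f c) = (evc c).comp ((ch R T).map f) := ch_ext fun x => by
    rw [evc_bas, co_map, LinearMap.comp_apply, map_bas]
    exact (ev_optS (X := T.obj p) c _).symm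
  exact LinearMap.congr_fun h y

/-- explicit formula for the coboundary -/
theorem co_d {T : PSS} {p : ℕ} (c : (co R T).obj p) (x : T.obj (p + 1)) :
    (co R T).d p c x = ∑ i ∈ Finset.range (p + 2), sn i ((T.map (dl p i) x).elim 0 c) := by
  rw [CosMod.d_apply]
  show (∑ i ∈ Finset.range (p + 2), sn i ((co R T).map (dl p i) c) : T.obj (p + 1) → R) x = _
  rw [Finset.sum_apply]
  rfl

theorem evc_d {T : PSS} {p : ℕ} (c : (co R T).obj p) (y : (ch R T).obj (p + 1)) :
    evc ((co R T).d p c) y = evc c ((ch R T).bd p y) := by
  have h : evc ((co R T).d p c) = (evc c).comp ((ch R T).bd p) := by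
    refine ch_ext fun x => ?_
    rw [evc_bas, co_d, LinearMap.comp_apply, SMod.bd_apply, map_sum]
    refine Finset.sum_congr rfl fun i _ => ?_
    rw [CosMod.sn_lin, map_bas]
    exact congrArg (sn i) (ev_optS (X := T.obj p) c _).symm
  exact LinearMap.congr_fun h y

/-- **Duality**: over a field, exactness of the chains below `m` gives the vanishing of the
cohomology of the functions below `m`. -/
theorem co_of_ch {k : Type} [Field k] {T : PSS} {m : ℕ} (h : (ch k T).Acy m) (j : ℕ) (hj : j < m) :
    (co k T).Z j ≤ (co k T).Bd j := by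
  intro c hc
  rw [CosMod.mem_Z] at hc
  have hc' : ∀ y, evc c ((ch k T).bd j y) = 0 := fun y => by
    rw [← evc_d, hc, evc_zero]
  cases j with
  | zero =>
    rw [CosMod.mem_Bd_zero]
    funext x
    obtain ⟨y, hy⟩ := h 0 hj (bas k x) (SMod.cyc_zero _ _)
    rw [← evc_bas c x, ← hy, hc']
    rfl
  | succ j =>
    have hk : evc c ∈ LinearMap.range ((ch k T).bd j).dualMap := by
      rw [LinearMap.range_dualMap_eq_dualAnnihilator_ker]
      refine (Submodule.mem_dualAnnihilator _).2 fun z hz => ?_
      obtain ⟨y, rfl⟩ := h (j + 1) hj z hz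
      exact hc' y
    obtain ⟨φ, hφ⟩ := hk
    refine ⟨mkc φ, evc_inj (LinearMap.ext fun y => ?_)⟩
    rw [evc_d, evc_mk]
    exact LinearMap.congr_fun hφ y

/-! ### maps and products -/

/-- Natural total maps of partial simplicial sets (strict: `none` goes to `none`). -/
structure PMap (T Q : PSS) where
  /-- the components -/
  app : ∀ {p : ℕ}, T.obj p → Q.obj p
  nat : ∀ {p q : ℕ} (f : Op p q) (x : T.obj q), Q.map f (app x) = (T.map f x).map app

/-- the two cases of the naturality of a total map -/
theorem nat_of {T Q : PSS} {p q : ℕ} {f : Op p q} {x : T.obj q} {y : Q.obj q}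
    {g : T.obj p → Q.obj p} (h1 : ∀ x', T.map f x = some x' → Q.map f y = some (g x'))
    (h2 : T.map f x = none → Q.map f y = none) : Q.map f y = (T.map f x).map g := by
  cases h : T.map f x with
  | none => rw [h2 h]; rfl
  | some x' => rw [h1 x' h]; rfl

namespace PMap

variable {T Q : PSS} (F : PMap T Q)

/-- the map on chains -/
noncomputable def chm (R : Type) [CommRing R] : SHom (ch R T) (ch R Q) where
  app p := Finsupp.lmapDomain R R F.app
  nat {p q} f x := by
    have h : (Finsupp.lmapDomain R R (F.app (p := p))).comp (chMap R (T.map f)) =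
        (chMap R (Q.map f)).comp (Finsupp.lmapDomain R R (F.app (p := q))) := by
      refine fin_ext fun x => ?_
      rw [LinearMap.comp_apply, LinearMap.comp_apply, chMap_single, Finsupp.lmapDomain_apply,
        Finsupp.lmapDomain_apply, Finsupp.mapDomain_single, chMap_single, F.nat]
      cases T.map f x with
      | none => simp
      | some y => simp
    exact LinearMap.congr_fun h x

theorem chm_single {p : ℕ} (x : T.obj p) (r : R) :
    (F.chm R).app p (Finsupp.single x r) = Finsupp.single (F.app x) r :=
  Finsupp.mapDomain_single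

theorem chm_bas {p : ℕ} (x : T.obj p) : (F.chm R).app p (bas R x) = bas R (F.app x) :=
  Finsupp.mapDomain_single

theorem chm_surjective (hF : ∀ p, Function.Surjective (F.app (p := p))) (p : ℕ) :
    Function.Surjective ((F.chm R).app p) :=
  Finsupp.mapDomain_surjective (hF p)

theorem chm_injective (hF : ∀ p, Function.Injective (F.app (p := p))) (p : ℕ) :
    Function.Injective ((F.chm R).app p) :=
  Finsupp.mapDomain_injective (hF p)

/-- exactness is inherited along isomorphisms -/
theorem acy_of_bijective (hF : ∀ p, Function.Bijective (F.app (p := p))) {m : ℕ}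
    (h : (ch R T).Acy m) : (ch R Q).Acy m :=
  (F.chm R).acy_of_bijective (fun p => ⟨F.chm_injective (fun p => (hF p).1) p,
    F.chm_surjective (fun p => (hF p).2) p⟩) h

/-- exactness is inherited along isomorphisms, other direction -/
theorem acy_of_bijective' (hF : ∀ p, Function.Bijective (F.app (p := p))) {m : ℕ}
    (h : (ch R Q).Acy m) : (ch R T).Acy m := by
  let G : PMap Q T :=
    { app := fun {p} y => (Equiv.ofBijective _ (hF p)).symm y
      nat := fun {p q} f y => by
        obtain ⟨x, rfl⟩ := (Equiv.ofBijective _ (hF q)).surjective y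
        rw [Equiv.symm_apply_apply]
        show T.map f x = (Q.map f (F.app x)).map _
        rw [F.nat]
        cases T.map f x with
        | none => rfl
        | some z =>
          show some z = some _
          congr 1
          exact ((Equiv.ofBijective _ (hF p)).symm_apply_apply z).symm }
  exact G.acy_of_bijective (fun p => (Equiv.ofBijective _ (hF p)).symm.bijective) h

end PMap

namespace PSS

/-- the smash product -/
@[reducible] def smash (T T' : PSS) : PSS where
  obj p := T.obj p × T'.obj p
  map f x := (T.map f x.1).bind fun a => (T'.map f x.2).map fun b => (a, b)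
  map_id x := by rw [T.map_id, T'.map_id]; rfl
  map_comp f g x := by
    rw [T.map_comp, T'.map_comp]
    cases T.map f x.1 with
    | none => rfl
    | some a =>
      cases T'.map f x.2 with
      | none =>
        show ((T.map g a).bind fun _ => none) = none
        cases T.map g a <;> rfl
      | some b => rfl

theorem smash_map_eq_some {T T' : PSS} {p q : ℕ} {f : Op p q} {x : T.obj q × T'.obj q}
    {y : T.obj p × T'.obj p} :
    (T.smash T').map f x = some y ↔ T.map f x.1 = some y.1 ∧ T'.map f x.2 = some y.2 := by
  show ((T.map f x.1).bind fun a => (T'.map f x.2).map fun b => (a, b)) = some y ↔ _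
  rw [Option.bind_eq_some_iff]
  constructor
  · rintro ⟨a, ha, h⟩
    rw [Option.map_eq_some_iff] at h
    obtain ⟨b, hb, rfl⟩ := h
    exact ⟨ha, hb⟩
  · rintro ⟨h1, h2⟩
    exact ⟨y.1, h1, by rw [h2]; rfl⟩

end PSS

theorem tens_chMap {R : Type} [CommRing R] {X Y X' Y' : Type} (f : X → Option Y)
    (f' : X' → Option Y') :
    (finsuppTensorFinsupp' R Y Y').toLinearMap.comp (TensorProduct.map (chMap R f) (chMap R f')) =
      (chMap R fun x : X × X' => (f x.1).bind fun a => (f' x.2).map fun b => (a, b)).comp
        (finsuppTensorFinsupp' R X X').toLinearMap := by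
  refine TensorProduct.ext (fin_ext fun x => fin_ext fun y => ?_)
  show finsuppTensorFinsupp' R Y Y'
      (chMap R f (Finsupp.single x 1) ⊗ₜ chMap R f' (Finsupp.single y 1)) =
    chMap R _ (finsuppTensorFinsupp' R X X' (Finsupp.single x 1 ⊗ₜ Finsupp.single y 1))
  rw [finsuppTensorFinsupp'_single_tmul_single, mul_one, chMap_single, chMap_single, chMap_single]
  show _ = optS R ((f x).bind fun a => (f' y).map fun b => (a, b))
  cases f x with
  | none => simp
  | some a =>
    cases f' y with
    | none => simp
    | some b => simp

/-- the chains of the smash product are the levelwise tensor product -/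
noncomputable def tensSmash (R : Type) [CommRing R] (T T' : PSS) :
    SHom (tens (ch R T) (ch R T')) (ch R (T.smash T')) where
  app p := (finsuppTensorFinsupp' R (T.obj p) (T'.obj p)).toLinearMap
  nat f x := LinearMap.congr_fun (tens_chMap (T.map f) (T'.map f)) x

theorem smash_acy {k : Type} [Field k] {T T' : PSS} {a b : ℕ} (h : (ch k T).Acy a)
    (h' : (ch k T').Acy b) : (ch k (T.smash T')).Acy (a + b) :=
  (tensSmash k T T').acy_of_bijective
    (fun p => (finsuppTensorFinsupp' k (T.obj p) (T'.obj p)).bijective) (tens_acy h h')

/-! ### free actions -/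

/-- A free natural action of a group on a partial simplicial set. -/
structure FreeAct (G : Type) [Group G] (T : PSS) where
  /-- the action -/
  smul : ∀ {p : ℕ}, G → T.obj p → T.obj p
  one : ∀ {p : ℕ} (x : T.obj p), smul 1 x = x
  mul : ∀ {p : ℕ} (g h : G) (x : T.obj p), smul (g * h) x = smul g (smul h x)
  free : ∀ {p : ℕ} (g : G) (x : T.obj p), smul g x = x → g = 1
  nat : ∀ {p q : ℕ} (g : G) (f : Op p q) (x : T.obj q),
    T.map f (smul g x) = (T.map f x).map (smul g)

namespace FreeAct

variable {G : Type} [Group G] {T Q : PSS} (A : FreeAct G T)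

/-- the map of a group element -/
def pm (g : G) : PMap T T := ⟨A.smul g, A.nat g⟩

theorem inj_left {p : ℕ} {g h : G} {x : T.obj p} (e : A.smul g x = A.smul h x) : g = h := by
  have : A.smul (h⁻¹ * g) x = x := by
    rw [A.mul, e, ← A.mul, inv_mul_cancel, A.one]
  have := A.free _ x this
  exact (inv_mul_eq_one.1 this).symm

/-- a projection to the orbits -/
structure IsOrbit (q : PMap T Q) : Prop where
  surj : ∀ p, Function.Surjective (q.app (p := p))
  fib : ∀ {p : ℕ} (x y : T.obj p), q.app x = q.app y ↔ ∃ g, A.smul g x = y

theorem pm_mul {p : ℕ} (g h : G) (u : (ch R T).obj p) :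
    ((A.pm (g * h)).chm R).app p u = ((A.pm g).chm R).app p (((A.pm h).chm R).app p u) := by
  have : ((A.pm (g * h)).chm R).app p =
      (((A.pm g).chm R).app p).comp (((A.pm h).chm R).app p) := by
    refine ch_ext fun x => ?_
    rw [LinearMap.comp_apply, PMap.chm_bas, PMap.chm_bas, PMap.chm_bas]
    exact congrArg _ (A.mul g h x)
  exact LinearMap.congr_fun this u

variable {A}

theorem IsOrbit.chm_pm {q : PMap T Q} (hq : A.IsOrbit q) {p : ℕ} (g : G) (u : (ch R T).obj p) :
    (q.chm R).app p (((A.pm g).chm R).app p u) = (q.chm R).app p u := by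
  have : ((q.chm R).app p).comp (((A.pm g).chm R).app p) = (q.chm R).app p := by
    refine ch_ext fun x => ?_
    rw [LinearMap.comp_apply, PMap.chm_bas, PMap.chm_bas, PMap.chm_bas]
    exact congrArg _ ((hq.fib x _).2 ⟨g, rfl⟩).symm
  exact LinearMap.congr_fun this u

/-- equivariant linear extension of an equivariant choice -/
theorem IsOrbit.exists_equivariant {q : PMap T Q} (hq : A.IsOrbit q) {j l : ℕ}
    (P : T.obj j → (ch R T).obj l → Prop) (hP : ∀ x, ∃ u, P x u)
    (hg : ∀ g x u, P x u → P (A.smul g x) (((A.pm g).chm R).app l u)) :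
    ∃ s : (ch R T).obj j →ₗ[R] (ch R T).obj l, (∀ x, P x (s (bas R x))) ∧
      ∀ g z, s (((A.pm g).chm R).app j z) = ((A.pm g).chm R).app l (s z) := by
  classical
  choose ρ hρ using hq.surj j
  have hγ : ∀ x : T.obj j, ∃ g, A.smul g (ρ (q.app x)) = x := fun x =>
    (hq.fib _ _).1 (hρ (q.app x))
  choose γ hγ using hγ
  choose u hu using hP
  let v : T.obj j → (ch R T).obj l := fun x => ((A.pm (γ x)).chm R).app l (u (ρ (q.app x)))
  have hv : ∀ g x, v (A.smul g x) = ((A.pm g).chm R).app l (v x) := by
    intro g x
    have e1 : q.app (A.smul g x) = q.app x := ((hq.fib x _).2 ⟨g, rfl⟩).symm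
    have e2 : γ (A.smul g x) = g * γ x := by
      refine A.inj_left (x := ρ (q.app x)) ?_
      rw [A.mul, hγ, ← e1, hγ]
    show ((A.pm (γ (A.smul g x))).chm R).app l (u (ρ (q.app (A.smul g x)))) =
      ((A.pm g).chm R).app l (((A.pm (γ x)).chm R).app l (u (ρ (q.app x))))
    rw [e1, e2, A.pm_mul]
  let s : (ch R T).obj j →ₗ[R] (ch R T).obj l := Finsupp.linearCombination R v
  have hs : ∀ x, s (bas R x) = v x := fun x => by
    show Finsupp.linearCombination R v (Finsupp.single x 1) = v x
    rw [Finsupp.linearCombination_single, one_smul]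
  refine ⟨s, fun x => ?_, fun g z => ?_⟩
  · rw [hs]
    have := hg (γ x) _ _ (hu (ρ (q.app x)))
    rwa [hγ] at this
  · have : s.comp (((A.pm g).chm R).app j) = (((A.pm g).chm R).app l).comp s := by
      refine ch_ext fun x => ?_
      rw [LinearMap.comp_apply, LinearMap.comp_apply, PMap.chm_bas, hs, hs]
      exact hv g x
    exact LinearMap.congr_fun this z

/-- a partial equivariant contraction -/
theorem IsOrbit.exists_contraction {q : PMap T Q} (hq : A.IsOrbit q) {m : ℕ}
    (h : (ch R T).Acy m) (j : ℕ) (hj : j < m) :
    ∃ s : (i : ℕ) → ((ch R T).obj i →ₗ[R] (ch R T).obj (i + 1)),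
      (∀ i g z, s i (((A.pm g).chm R).app i z) = ((A.pm g).chm R).app (i + 1) (s i z)) ∧
      (∀ z, (ch R T).bd 0 (s 0 z) = z) ∧
      ∀ i, i < j → ∀ z, (ch R T).bd (i + 1) (s (i + 1) z) + s i ((ch R T).bd i z) = z := by
  induction j with
  | zero =>
    obtain ⟨s, hs, hs'⟩ := hq.exists_equivariant (R := R) (l := 1)
      (fun (x : T.obj 0) u => (ch R T).bd 0 u = bas R x)
      (fun x => h 0 hj (bas R x) (SMod.cyc_zero _ _))
      (fun g x u hu => by
        rw [← SHom.app_bd, hu]
        exact PMap.chm_bas _ _)
    refine ⟨fun i => match i with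
      | 0 => s
      | _ + 1 => 0, fun i g z => ?_, fun z => ?_, fun i hi => absurd hi (Nat.not_lt_zero _)⟩
    · cases i with
      | zero => exact hs' g z
      | succ i => exact (map_zero _).symm
    · have : ((ch R T).bd 0).comp s = LinearMap.id := ch_ext fun x => hs x
      exact LinearMap.congr_fun this z
  | succ j ih =>
    obtain ⟨s, h1, h2, h3⟩ := ih (by omega)
    have hc : ∀ x : T.obj (j + 1), (ch R T).Cyc (j + 1)
        (bas R x - s j ((ch R T).bd j (bas R x))) := by
      intro x
      rw [SMod.cyc_succ, map_sub, sub_eq_zero]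
      cases j with
      | zero => exact (h2 _).symm
      | succ j =>
        have := h3 j (by omega) ((ch R T).bd (j + 1) (bas R x))
        rw [SMod.bd_bd, map_zero, add_zero] at this
        exact this.symm
    obtain ⟨t, ht, ht'⟩ := hq.exists_equivariant (R := R) (l := j + 2)
      (fun (x : T.obj (j + 1)) u => (ch R T).bd (j + 1) u =
        bas R x - s j ((ch R T).bd j (bas R x)))
      (fun x => h (j + 1) hj _ (hc x))
      (fun g x u hu => by
        have e : ((A.pm g).chm R).app (j + 1) (bas R x) = bas R (A.smul g x) :=
          PMap.chm_bas _ _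
        rw [← SHom.app_bd, hu, map_sub, e, ← h1, SHom.app_bd, e])
    refine ⟨Function.update s (j + 1) t, fun i g z => ?_, fun z => ?_, fun i hi z => ?_⟩
    · by_cases hi : i = j + 1
      · subst hi
        rw [Function.update_self]
        exact ht' g z
      · rw [Function.update_of_ne hi]
        exact h1 i g z
    · rw [Function.update_of_ne (by omega)]
      exact h2 z
    · by_cases hi' : i = j
      · subst hi'
        rw [Function.update_self, Function.update_of_ne (by omega)]
        have : ((ch R T).bd (i + 1)).comp t + (s i).comp ((ch R T).bd i) = LinearMap.id := by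
          refine ch_ext fun x => ?_
          show (ch R T).bd (i + 1) (t (bas R x)) +
            s i ((ch R T).bd i (bas R x)) = bas R x
          rw [ht, sub_add_cancel]
        exact LinearMap.congr_fun this z
      · rw [Function.update_of_ne (by omega), Function.update_of_ne (by omega)]
        exact h3 i (by omega) z

/-- **Orbits of free actions**: exactness below `m` descends to the orbits. -/
theorem IsOrbit.acy {q : PMap T Q} (hq : A.IsOrbit q) {m : ℕ} (h : (ch R T).Acy m) :
    (ch R Q).Acy m := by
  intro j hj z hz
  obtain ⟨s, h1, h2, h3⟩ := hq.exists_contraction h j hj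
  have hs : ∀ i, ∃ t : (ch R Q).obj i →ₗ[R] (ch R Q).obj (i + 1),
      ∀ x, t ((q.chm R).app i x) = (q.chm R).app (i + 1) (s i x) := by
    intro i
    choose ρ hρ using hq.surj i
    let t : (ch R Q).obj i →ₗ[R] (ch R Q).obj (i + 1) :=
      Finsupp.linearCombination R fun y => (q.chm R).app (i + 1) (s i (bas R (ρ y)))
    have hT : ∀ y, t (bas R y) = (q.chm R).app (i + 1) (s i (bas R (ρ y))) := fun y => by
      show Finsupp.linearCombination R (fun y => (q.chm R).app (i + 1) (s i (bas R (ρ y))))
        (Finsupp.single y 1) = _
      rw [Finsupp.linearCombination_single, one_smul]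
    refine ⟨t, fun x => ?_⟩
    have : t.comp ((q.chm R).app i) = ((q.chm R).app (i + 1)).comp (s i) := by
      refine ch_ext fun x => ?_
      obtain ⟨g, hg⟩ := (hq.fib _ _).1 (hρ (q.app x))
      have e' : ((A.pm g).chm R).app i (bas R (ρ (q.app x))) = bas R x :=
        (PMap.chm_bas _ _).trans (congrArg _ hg)
      rw [LinearMap.comp_apply, LinearMap.comp_apply, PMap.chm_bas, hT, ← e', h1, hq.chm_pm]
    exact LinearMap.congr_fun this x
  choose t ht using hs
  refine ⟨t j z, ?_⟩
  obtain ⟨z, rfl⟩ := q.chm_surjective hq.surj j z
  cases j with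
  | zero => rw [ht, ← SHom.app_bd, h2]
  | succ j =>
    rw [SMod.cyc_succ] at hz
    have e := h3 j (by omega) z
    have e2 : (q.chm R).app (j + 1) (s j ((ch R T).bd j z)) = 0 := by
      rw [← ht, SHom.app_bd, hz, map_zero]
    rw [ht, ← SHom.app_bd]
    have := congrArg ((q.chm R).app (j + 1)) e
    rwa [map_add, e2, add_zero] at this

end FreeAct

end Vale.Agent.P263.GR
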