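import Mathlib.GroupTheory.Perm.Basic
import Mathlib.Data.Fintype.EquivFin
import Vale.Agent.P263.GR.Part

/-!
# P263, block RNG: smash powers of partial simplicial sets (helper241)

`T.fn k` : the `k`-th smash power, with simplices `Fin k → T.obj p`; its chains are exact below
`k * n` if the chains of `T` are exact below `n` (`fn_acy`).
-/

namespace Vale.Agent.P263.GR

open Vale.Agent.P263.S

/-- a family of partial values, all defined -/
def seqO {X : Type} {k : ℕ} (u : Fin k → Option X) : Option (Fin k → X) :=
  if h : ∀ i, (u i).isSome then some fun i => (u i).get (h i) else none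

theorem seqO_eq_some {X : Type} {k : ℕ} {u : Fin k → Option X} {a : Fin k → X} :
    seqO u = some a ↔ ∀ i, u i = some (a i) := by
  unfold seqO
  by_cases h : ∀ i, (u i).isSome
  · rw [dif_pos h]
    constructor
    · intro e i
      have := congrFun (Option.some.inj e) i
      rw [← this]
      exact (Option.some_get (h i)).symm
    · intro e
      congr 1
      funext i
      exact Option.get_of_eq_some (h i) (e i)
  · rw [dif_neg h]
    constructor
    · intro e
      exact absurd e (by simp)
    · intro e
      exact absurd (fun i => by rw [e i]; rfl) h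

theorem seqO_some {X : Type} {k : ℕ} (a : Fin k → X) : seqO (fun i => some (a i)) = some a :=
  seqO_eq_some.2 fun _ => rfl

theorem seqO_eq_none {X : Type} {k : ℕ} {u : Fin k → Option X} {i : Fin k} (h : u i = none) :
    seqO u = none := by
  rw [Option.eq_none_iff_forall_ne_some]
  intro a ha
  rw [seqO_eq_some.1 ha i] at h
  exact absurd h (by simp)

/-- options are equal if they have the same values -/
theorem opt_ext {X : Type} {o o' : Option X} (h : ∀ a, o = some a ↔ o' = some a) : o = o' := by
  cases o with
  | none =>
    cases o' with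
    | none => rfl
    | some b => exact (h b).2 rfl
  | some a => exact ((h a).1 rfl).symm

namespace PSS

/-- the smash power -/
@[reducible] def fn (T : PSS) (k : ℕ) : PSS where
  obj p := Fin k → T.obj p
  map f a := seqO fun i => T.map f (a i)
  map_id a := seqO_eq_some.2 fun i => T.map_id (a i)
  map_comp {p q r} f g a := by
    apply opt_ext
    intro b
    rw [seqO_eq_some, Option.bind_eq_some_iff]
    constructor
    · intro h
      have h1 : ∀ i, ∃ c, T.map f (a i) = some c ∧ T.map g c = some (b i) := fun i => by
        have := h i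
        rw [T.map_comp, Option.bind_eq_some_iff] at this
        exact this
      choose c hc hc' using h1
      exact ⟨c, seqO_eq_some.2 hc, seqO_eq_some.2 hc'⟩
    · rintro ⟨c, hc, hc'⟩ i
      rw [seqO_eq_some] at hc hc'
      rw [T.map_comp, hc i, Option.bind_some]
      exact hc' i

theorem fn_map {T : PSS} {k p q : ℕ} (f : Op p q) (a : (T.fn k).obj q) :
    (T.fn k).map f a = seqO fun i => T.map f (a i) := rfl

theorem cons_aux (T : PSS) {k p q : ℕ} (f : Op p q) (x : T.obj q) (a : Fin k → T.obj q) :
    (seqO fun i => T.map f ((Fin.cons x a : Fin (k + 1) → T.obj q) i)) =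
      Option.map (fun y : T.obj p × (Fin k → T.obj p) =>
        (Fin.cons y.1 y.2 : Fin (k + 1) → T.obj p))
        ((T.map f x).bind fun u => (seqO fun i => T.map f (a i)).map fun v => (u, v)) := by
  apply opt_ext
  intro b
  rw [seqO_eq_some, Option.map_eq_some_iff]
  constructor
  · intro h
    have h0 : T.map f x = some (b 0) := h 0
    have h1 : (seqO fun i => T.map f (a i)) = some (fun i : Fin k => b i.succ) :=
      seqO_eq_some.2 fun i => h i.succ
    refine ⟨(b 0, fun i => b i.succ), ?_, Fin.cons_self_tail b⟩
    rw [h0, h1]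
    rfl
  · rintro ⟨y, hy, rfl⟩
    rw [Option.bind_eq_some_iff] at hy
    obtain ⟨u, hu, hy⟩ := hy
    rw [Option.map_eq_some_iff] at hy
    obtain ⟨v, hv, rfl⟩ := hy
    have hv' := seqO_eq_some.1 hv
    intro i
    induction i using Fin.cases with
    | zero => exact hu
    | succ i => exact hv' i

/-- one more factor -/
def fnCons (T : PSS) (k : ℕ) : PMap (T.smash (T.fn k)) (T.fn (k + 1)) where
  app {p} x := (Fin.cons x.1 x.2 : Fin (k + 1) → T.obj p)
  nat f x := T.cons_aux f x.1 x.2

theorem fnCons_bijective (T : PSS) (k p : ℕ) :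
    Function.Bijective ((T.fnCons k).app (p := p)) := by
  constructor
  · rintro ⟨x, a⟩ ⟨x', a'⟩ h
    have h' : (Fin.cons x a : Fin (k + 1) → T.obj p) = Fin.cons x' a' := h
    obtain ⟨h1, h2⟩ := Fin.cons_inj.1 h'
    exact Prod.ext h1 h2
  · intro b
    exact ⟨(b 0, fun i => b i.succ), Fin.cons_self_tail b⟩

/-- **the connectivity of smash powers** -/
theorem fn_acy {K : Type} [Field K] {T : PSS} {n : ℕ} (h : (ch K T).Acy n) (k : ℕ) :
    (ch K (T.fn k)).Acy (k * n) := by
  induction k with
  | zero =>
    rw [Nat.zero_mul]
    exact SMod.acy_zero _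
  | succ k ih =>
    have := (T.fnCons k).acy_of_bijective (T.fnCons_bijective k) (smash_acy h ih)
    rwa [Nat.succ_mul, Nat.add_comm (k * n)]

end PSS

end Vale.Agent.P263.GR
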