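import Vale.Agent.P263.GR.Filt
import Vale.Agent.P263.GR.Pow
import Vale.Agent.P263.TJ.Gamma

/-!
# P263, block RNG: the weight filtration of the free-sum model (helper241)

`prt A` : the simplices of `B` outside of `A`, a partial simplicial set.
The simplices of `Gam l A` with exactly `k` sheets are the orbits of a free action of the
permutations of `Fin k` on (ordered labels) smash (the `k`-th smash power of `prt A`), so their
chains are exact below `k * n` if the relative homology of `(B, A)` vanishes below `n`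
(`piece_acy`).  `gam_filt` : every cocycle of degree `< 2 n` of `Gam l A` which vanishes on the
simplices with at most one sheet is the coboundary of such a cochain.
-/

namespace Vale.Agent.P263.GR

open Vale.Agent.P263.S Vale.Agent.P263.E Vale.Agent.P263.TJ

/-- the simplices outside of a sub simplicial set -/
noncomputable def prtMap {B : SS} (A : Sb B) {p q : ℕ} (f : Op p q) (x : {x : B.obj q // ¬ A.mem x}) :
    Option {x : B.obj p // ¬ A.mem x} := by
  classical
  exact if h : ¬ A.mem (B.map f x.1) then some ⟨B.map f x.1, h⟩ else none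

theorem prtMap_pos {B : SS} {A : Sb B} {p q : ℕ} {f : Op p q} {x : {x : B.obj q // ¬ A.mem x}}
    (h : ¬ A.mem (B.map f x.1)) : prtMap A f x = some ⟨B.map f x.1, h⟩ := dif_pos h

theorem prtMap_neg {B : SS} {A : Sb B} {p q : ℕ} {f : Op p q} {x : {x : B.obj q // ¬ A.mem x}}
    (h : A.mem (B.map f x.1)) : prtMap A f x = none := dif_neg (not_not.2 h)

theorem prtMap_comp {B : SS} {A : Sb B} {p q r : ℕ} (f : Op q r) (g : Op p q)
    (x : {x : B.obj r // ¬ A.mem x}) :
    prtMap A (f.comp g) x = (prtMap A f x).bind (prtMap A g) := by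
  have e : B.map (f.comp g) x.1 = B.map g (B.map f x.1) := B.map_comp f g x.1
  by_cases h : A.mem (B.map f x.1)
  · rw [prtMap_neg h, prtMap_neg (by rw [e]; exact A.map_mem g h)]
    rfl
  · rw [prtMap_pos h, Option.bind_some]
    by_cases h' : A.mem (B.map g (B.map f x.1))
    · rw [prtMap_neg (by rw [e]; exact h'), prtMap_neg (x := ⟨B.map f x.1, h⟩) h']
    · rw [prtMap_pos (by rw [e]; exact h'), prtMap_pos (x := ⟨B.map f x.1, h⟩) h']
      exact congrArg some (Subtype.ext e)

theorem prtMap_eq_some {B : SS} {A : Sb B} {p q : ℕ} {f : Op p q} {x : {x : B.obj q // ¬ A.mem x}}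
    {y : {x : B.obj p // ¬ A.mem x}} : prtMap A f x = some y ↔ B.map f x.1 = y.1 := by
  by_cases h : A.mem (B.map f x.1)
  · rw [prtMap_neg h]
    constructor
    · intro h'
      exact absurd h' (by simp)
    · intro h'
      rw [h'] at h
      exact absurd h y.2
  · rw [prtMap_pos h, Option.some_inj]
    exact Subtype.ext_iff

/-- the simplices outside of a sub simplicial set -/
@[reducible] noncomputable def prt {B : SS} (A : Sb B) : PSS where
  obj p := {x : B.obj p // ¬ A.mem x}
  map f x := prtMap A f x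
  map_id x := by
    have e : B.map OrderHom.id x.1 = x.1 := B.map_id x.1
    rw [prtMap_pos (by rw [e]; exact x.2)]
    exact congrArg some (Subtype.ext e)
  map_comp f g x := prtMap_comp f g x

variable (l : LabS) {B : SS} (A : Sb B)

/-- ordered admissible labels -/
abbrev OLo (k p : ℕ) : Type := {a : Fin k → l.L.obj p // Function.Injective a ∧ l.Good (Set.range a)}

/-- faces of ordered labels -/
def olMap {k p q : ℕ} (f : Op p q) (a : OLo l k q) : OLo l k p := ⟨fun i => l.L.map f (a.1 i), by
  refine ⟨fun i j h => a.2.1 ?_, ?_⟩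
  · refine l.at_inj a.2.2 ⟨i, rfl⟩ ⟨j, rfl⟩ (f 0) ?_
    rw [← l.at_map, ← l.at_map]
    exact congrArg (fun c => l.at' c 0) h
  · have := l.good_map f a.2.2
    rwa [← Set.range_comp] at this⟩

/-- ordered admissible labels -/
@[reducible] def OL (k : ℕ) : PSS where
  obj p := OLo l k p
  map f a := some (olMap l f a)
  map_id a := congrArg some (Subtype.ext (funext fun i => l.L.map_id (a.1 i)))
  map_comp f g a := congrArg some (Subtype.ext (funext fun i => l.L.map_comp f g (a.1 i)))

/-- the ordered labelled families -/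
@[reducible] noncomputable def FM (k : ℕ) : PSS := (OL l k).smash ((prt A).fn k)

variable {l A}

theorem FM_map_eq_some {k p q : ℕ} {f : Op p q} {x : (FM l A k).obj q} {y : (FM l A k).obj p} :
    (FM l A k).map f x = some y ↔
      (∀ i, l.L.map f (x.1.1 i) = y.1.1 i) ∧ ∀ i, B.map f (x.2 i).1 = (y.2 i).1 := by
  refine PSS.smash_map_eq_some.trans (and_congr ?_ ?_)
  · show some (olMap l f x.1) = some y.1 ↔ _
    rw [Option.some_inj, Subtype.ext_iff]
    exact funext_iff
  · show seqO (fun i => prtMap A f (x.2 i)) = some y.2 ↔ _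
    rw [seqO_eq_some]
    exact forall_congr' fun i => prtMap_eq_some

theorem FM_map_some {k p q : ℕ} {f : Op p q} {x : (FM l A k).obj q}
    (h : ∀ i, ¬ A.mem (B.map f (x.2 i).1)) :
    (FM l A k).map f x = some (olMap l f x.1, fun i => ⟨B.map f (x.2 i).1, h i⟩) :=
  FM_map_eq_some.2 ⟨fun _ => rfl, fun _ => rfl⟩

theorem FM_map_none {k p q : ℕ} {f : Op p q} {x : (FM l A k).obj q}
    (h : (FM l A k).map f x = none) : ∃ i, A.mem (B.map f (x.2 i).1) := by
  by_contra hc
  push Not at hc
  rw [FM_map_some hc] at h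
  exact absurd h (by simp)

variable (l A)

omit l A in
theorem perm_inv_apply {k : ℕ} (g : Equiv.Perm (Fin k)) (i : Fin k) : g⁻¹ (g i) = i :=
  g.symm_apply_apply i

/-- the action of a permutation -/
def psm {k p : ℕ} (σ : Equiv.Perm (Fin k)) (x : OLo l k p × (Fin k → {x : B.obj p // ¬ A.mem x})) :
    OLo l k p × (Fin k → {x : B.obj p // ¬ A.mem x}) :=
  (⟨fun i => x.1.1 (σ⁻¹ i), x.1.2.1.comp (σ⁻¹).injective, by
    have : Set.range (fun i => x.1.1 (σ⁻¹ i)) = Set.range x.1.1 :=
      (σ⁻¹).surjective.range_comp x.1.1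
    rw [this]
    exact x.1.2.2⟩, fun i => x.2 (σ⁻¹ i))

/-- the permutation action on ordered labelled families -/
noncomputable def permAct (k : ℕ) : FreeAct (Equiv.Perm (Fin k)) (FM l A k) where
  smul {p} σ x := psm l A σ x
  one x := rfl
  mul g h x := by
    refine Prod.ext (Subtype.ext (funext fun i => ?_)) (funext fun i => ?_)
    · show x.1.1 ((g * h)⁻¹ i) = x.1.1 (h⁻¹ (g⁻¹ i))
      rw [mul_inv_rev]
      rfl
    · show x.2 ((g * h)⁻¹ i) = x.2 (h⁻¹ (g⁻¹ i))
      rw [mul_inv_rev]
      rfl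
  free g x h := by
    have h1 : ∀ i, g⁻¹ i = i := fun i => x.1.2.1 (congrFun (congrArg (fun y => y.1.1) h) i)
    apply Equiv.ext
    intro i
    have := h1 (g i)
    rw [perm_inv_apply] at this
    exact this.symm
  nat {p q} g f x := by
    refine nat_of (fun y hy => ?_) fun hy => ?_
    · rw [FM_map_eq_some] at hy ⊢
      exact ⟨fun i => hy.1 (g⁻¹ i), fun i => hy.2 (g⁻¹ i)⟩
    · obtain ⟨i, hi⟩ := FM_map_none hy
      by_contra hc
      obtain ⟨z, hz⟩ := Option.ne_none_iff_exists'.1 hc
      have h2 := (FM_map_eq_some.1 hz).2 (g i)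
      have h3 : (psm l A g x).2 (g i) = x.2 i := by
        show x.2 (g⁻¹ (g i)) = x.2 i
        rw [perm_inv_apply]
      rw [h3] at h2
      rw [h2] at hi
      exact (z.2 (g i)).2 hi

/-- the number of sheets -/
noncomputable def wtG : Wt (Gam l A) where
  w F := F.1.card
  map_le f F := by
    classical
    exact (Finset.card_filter_le _ _).trans Finset.card_image_le

/-- the set of sheets of an ordered labelled family -/
noncomputable def famSet {k p : ℕ} (a : Fin k → l.L.obj p) (b : Fin k → {x : B.obj p // ¬ A.mem x}) :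
    Finset (Sheet l B p) := by
  classical
  exact Finset.univ.image fun i => (a i, (b i).1)

theorem mem_famSet {k p : ℕ} {a : Fin k → l.L.obj p} {b : Fin k → {x : B.obj p // ¬ A.mem x}}
    {x : Sheet l B p} : x ∈ famSet l A a b ↔ ∃ i, (a i, (b i).1) = x := by
  classical
  rw [famSet, Finset.mem_image]
  simp

theorem famSet_ok {k p : ℕ} {a : Fin k → l.L.obj p} (b : Fin k → {x : B.obj p // ¬ A.mem x})
    (ha : Function.Injective a) (hg : l.Good (Set.range a)) : GOk l A (famSet l A a b) := by
  refine ⟨l.good_sub hg ?_, ?_, ?_⟩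
  · rintro _ ⟨x, hx, rfl⟩
    obtain ⟨i, rfl⟩ := (mem_famSet l A).1 (Finset.mem_coe.1 hx)
    exact ⟨i, rfl⟩
  · intro x hx y hy h
    obtain ⟨i, rfl⟩ := (mem_famSet l A).1 (Finset.mem_coe.1 hx)
    obtain ⟨j, rfl⟩ := (mem_famSet l A).1 (Finset.mem_coe.1 hy)
    rw [ha (show a i = a j from h)]
  · intro x hx
    obtain ⟨i, rfl⟩ := (mem_famSet l A).1 hx
    exact (b i).2

theorem famSet_card {k p : ℕ} {a : Fin k → l.L.obj p} (b : Fin k → {x : B.obj p // ¬ A.mem x})
    (ha : Function.Injective a) : (famSet l A a b).card = k := by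
  classical
  rw [famSet, Finset.card_image_of_injective, Finset.card_univ, Fintype.card_fin]
  intro i j h
  exact ha (congrArg Prod.fst h)

/-- the set of sheets of a family, as a simplex -/
noncomputable def famG {k p : ℕ} (x : OLo l k p × (Fin k → {x : B.obj p // ¬ A.mem x})) :
    {F : (Gam l A).obj p // (wtG l A).w F = k} :=
  ⟨⟨famSet l A x.1.1 x.2, famSet_ok l A x.2 x.1.2.1 x.1.2.2⟩, famSet_card l A x.2 x.1.2.1⟩

theorem gmap_famSet {k p q : ℕ} {f : Op p q} {x : (FM l A k).obj q} {y : (FM l A k).obj p}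
    (h : (FM l A k).map f x = some y) :
    gmap l A f (famSet l A x.1.1 x.2) = famSet l A y.1.1 y.2 := by
  obtain ⟨h1, h2⟩ := FM_map_eq_some.1 h
  ext z
  rw [mem_gmap, mem_famSet]
  constructor
  · rintro ⟨⟨w, hw, rfl⟩, -⟩
    obtain ⟨i, rfl⟩ := (mem_famSet l A).1 hw
    exact ⟨i, Prod.ext (h1 i).symm (h2 i).symm⟩
  · rintro ⟨i, rfl⟩
    exact ⟨⟨(x.1.1 i, (x.2 i).1), (mem_famSet l A).2 ⟨i, rfl⟩, Prod.ext (h1 i) (h2 i)⟩,
      (y.2 i).2⟩

theorem gmap_famSet_card {k p q : ℕ} {f : Op p q} {x : (FM l A k).obj q} {i : Fin k}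
    (hi : A.mem (B.map f (x.2 i).1)) : (gmap l A f (famSet l A x.1.1 x.2)).card < k := by
  classical
  have h2 : gmap l A f (famSet l A x.1.1 x.2) ⊆
      ((famSet l A x.1.1 x.2).erase (x.1.1 i, (x.2 i).1)).image (shm l f) := by
    intro z hz
    obtain ⟨⟨y, hy, rfl⟩, hx'⟩ := mem_gmap.1 hz
    refine Finset.mem_image.2 ⟨y, Finset.mem_erase.2 ⟨?_, hy⟩, rfl⟩
    rintro rfl
    exact hx' hi
  have h3 := Finset.card_le_card h2
  have h4 := Finset.card_image_le (s := (famSet l A x.1.1 x.2).erase (x.1.1 i, (x.2 i).1))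
    (f := shm l f)
  have h5 : (x.1.1 i, (x.2 i).1) ∈ famSet l A x.1.1 x.2 := (mem_famSet l A).2 ⟨i, rfl⟩
  rw [Finset.card_erase_of_mem h5, famSet_card l A x.2 x.1.2.1] at h4
  have h6 : 0 < k := lt_of_le_of_lt (Nat.zero_le _) i.2
  omega

/-- the projection of the ordered families to the sets of sheets -/
noncomputable def quo (k : ℕ) : PMap (FM l A k) ((wtG l A).piece k) where
  app x := famG l A x
  nat {p q} f x := by
    refine nat_of (fun y hy => ?_) fun hy => ?_
    · have e := gmap_famSet l A hy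
      have hc : (wtG l A).w ((Gam l A).map f (famG l A x).1) = k := by
        show (gmap l A f (famSet l A x.1.1 x.2)).card = k
        rw [e]
        exact famSet_card l A _ y.1.2.1
      refine ((wtG l A).pmap_pos (f := f) (x := famG l A x) hc).trans (congrArg some ?_)
      exact Subtype.ext (Subtype.ext e)
    · obtain ⟨i, hi⟩ := FM_map_none hy
      exact (wtG l A).pmap_neg (f := f) (x := famG l A x) (gmap_famSet_card l A hi).ne

/-- the sets of sheets are the orbits of the ordered families -/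
theorem quo_isOrbit (k : ℕ) : (permAct l A k).IsOrbit (quo l A k) where
  surj p := by
    rintro ⟨⟨F, hF⟩, hk⟩
    have hk' : F.card = k := hk
    let e : Fin k ≃ F := (finCongr hk'.symm).trans F.equivFin.symm
    have hinj : Function.Injective fun i => (e i).1.1 := by
      intro i j h
      exact e.injective (Subtype.ext (hF.2.1 (Finset.mem_coe.2 (e i).2)
        (Finset.mem_coe.2 (e j).2) h))
    refine ⟨(⟨fun i => (e i).1.1, hinj, l.good_sub hF.1 ?_⟩,
      fun i => ⟨(e i).1.2, hF.2.2 _ (e i).2⟩), ?_⟩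
    · rintro _ ⟨i, rfl⟩
      exact ⟨(e i).1, (e i).2, rfl⟩
    · apply Subtype.ext
      apply Subtype.ext
      ext x
      refine (mem_famSet l A).trans ?_
      constructor
      · rintro ⟨i, rfl⟩
        exact (e i).2
      · intro hx
        refine ⟨e.symm ⟨x, hx⟩, ?_⟩
        show (((e (e.symm ⟨x, hx⟩)).1.1, (e (e.symm ⟨x, hx⟩)).1.2) : Sheet l B p) = x
        rw [Equiv.apply_symm_apply]
  fib {p} x y := by
    obtain ⟨⟨a, ha, hg⟩, b⟩ := x
    obtain ⟨⟨a', ha', hg'⟩, b'⟩ := y
    constructor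
    · intro h
      have h' : famSet l A a b = famSet l A a' b' :=
        congrArg (fun z : {F : (Gam l A).obj p // (wtG l A).w F = k} => z.1.1) h
      have h1 : ∀ i, ∃ j, (a j, (b j).1) = (a' i, (b' i).1) := fun i => by
        rw [← mem_famSet l A, h', mem_famSet]
        exact ⟨i, rfl⟩
      choose τ hτ using h1
      have hτi : Function.Injective τ := by
        intro i j hij
        apply ha'
        have h2 := congrArg Prod.fst (hτ i)
        have h3 := congrArg Prod.fst (hτ j)
        simp only at h2 h3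
        rw [← h2, ← h3, hij]
      let σ : Equiv.Perm (Fin k) := (Equiv.ofBijective τ (Finite.injective_iff_bijective.1 hτi))⁻¹
      refine ⟨σ, ?_⟩
      refine Prod.ext (Subtype.ext (funext fun i => ?_)) (funext fun i => Subtype.ext ?_)
      · show a (σ⁻¹ i) = a' i
        rw [inv_inv]
        exact congrArg Prod.fst (hτ i)
      · show (b (σ⁻¹ i)).1 = (b' i).1
        rw [inv_inv]
        exact congrArg Prod.snd (hτ i)
    · rintro ⟨g, hg2⟩
      rw [← hg2]
      apply Subtype.ext
      apply Subtype.ext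
      ext x
      refine (mem_famSet l A).trans (Iff.trans ?_ (mem_famSet l A).symm)
      constructor
      · rintro ⟨i, rfl⟩
        refine ⟨g i, ?_⟩
        show ((a (g⁻¹ (g i)), (b (g⁻¹ (g i))).1) : Sheet l B p) = _
        rw [perm_inv_apply]
      · rintro ⟨i, rfl⟩
        exact ⟨g⁻¹ i, rfl⟩

variable {K : Type} [Field K]

/-- **the connectivity of the pieces** -/
theorem piece_acy {n : ℕ} (h : (ch K (prt A)).Acy n) (k : ℕ) :
    (ch K ((wtG l A).piece k)).Acy (k * n) := by
  refine (quo_isOrbit l A k).acy ?_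
  have := smash_acy (SMod.acy_zero (ch K (OL l k))) (PSS.fn_acy h k)
  rwa [Nat.zero_add] at this

theorem piece_acy_two {n : ℕ} (h : (ch K (prt A)).Acy n) (k : ℕ) (hk : 2 ≤ k) :
    (ch K ((wtG l A).piece k)).Acy (2 * n) :=
  (piece_acy l A h k).mono (Nat.mul_le_mul_right n hk)

/-- cocycles of degree `< 2 n` which vanish on at most one sheet, positive degrees -/
theorem gam_filt_succ {n j : ℕ} (h : (ch K (prt A)).Acy n) (hj : j + 1 < 2 * n)
    (c : (Gam l A).obj (j + 1) → K) (hc : dF c = 0)
    (h0 : ∀ F : (Gam l A).obj (j + 1), F.1.card < 2 → c F = 0) :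
    ∃ e : (Gam l A).obj j → K, (∀ F : (Gam l A).obj j, F.1.card < 2 → e F = 0) ∧ dF e = c :=
  (wtG l A).filt_succ (piece_acy_two l A h) hj c hc h0

/-- cocycles of degree `< 2 n` which vanish on at most one sheet, degree zero -/
theorem gam_filt_zero {n : ℕ} (h : (ch K (prt A)).Acy n) (hn : 0 < n)
    (c : (Gam l A).obj 0 → K) (hc : dF c = 0)
    (h0 : ∀ F : (Gam l A).obj 0, F.1.card < 2 → c F = 0) : c = 0 :=
  (wtG l A).filt_zero (piece_acy_two l A h) (by omega) c hc h0

end Vale.Agent.P263.GR
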