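import Vale.Agent.P263.GR.Gam
import Vale.Agent.P263.TJ.SN

/-!
# P263, block RNG: the connectivity of simplicial spheres and suspensions (helper241)

`acy_SN` : the relative chains of the cube modulo its boundary are exact below `n`.
`acy_prod_SN` : the same for `(B × (Δ¹)ⁿ, A × (Δ¹)ⁿ ∪ B × boundary)`.
-/

namespace Vale.Agent.P263.GR

open Vale.Agent.P263.S Vale.Agent.P263.E Vale.Agent.P263.TJ

variable {K : Type} [Field K]

/-- the smash product of two relative simplicial sets is the relative product -/
theorem nat_prtMap {B : SS} {A : Sb B} {p q : ℕ} {f : Op p q} {x : {x : B.obj q // ¬ A.mem x}}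
    {o : Option {x : B.obj p // ¬ A.mem x}} (h1 : ∀ y, o = some y → B.map f x.1 = y.1)
    (h2 : o = none → A.mem (B.map f x.1)) : prtMap A f x = o := by
  cases o with
  | none => exact prtMap_neg (h2 rfl)
  | some y => exact prtMap_eq_some.2 (h1 y rfl)

/-- the product of two relative simplicial sets -/
def prodSb {X Y : SS} (A : Sb X) (A' : Sb Y) : Sb (X.prod Y) :=
  (A.comap (SS.fst X Y)).union (A'.comap (SS.snd X Y))

/-- the comparison of the smash product with the relative product -/
noncomputable def smashProd {X Y : SS} (A : Sb X) (A' : Sb Y) :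
    PMap ((prt A).smash (prt A')) (prt (prodSb A A')) where
  app x := ⟨(x.1.1, x.2.1), fun h => h.elim x.1.2 x.2.2⟩
  nat {p q} f x := by
    refine nat_of (fun y hy => ?_) fun hy => ?_
    · obtain ⟨h1, h2⟩ := PSS.smash_map_eq_some.1 hy
      refine prtMap_eq_some.2 (Prod.ext ?_ ?_)
      · exact prtMap_eq_some.1 h1
      · exact prtMap_eq_some.1 h2
    · refine prtMap_neg ?_
      by_contra hc
      have hc' := not_or.1 hc
      have : ((prt A).smash (prt A')).map f x =
          some (⟨X.map f x.1.1, hc'.1⟩, ⟨Y.map f x.2.1, hc'.2⟩) :=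
        PSS.smash_map_eq_some.2 ⟨prtMap_eq_some.2 rfl, prtMap_eq_some.2 rfl⟩
      rw [this] at hy
      exact absurd hy (by simp)

theorem smashProd_bijective {X Y : SS} (A : Sb X) (A' : Sb Y) (p : ℕ) :
    Function.Bijective ((smashProd A A').app (p := p)) := by
  constructor
  · rintro ⟨⟨x, hx⟩, ⟨y, hy⟩⟩ ⟨⟨x', hx'⟩, ⟨y', hy'⟩⟩ h
    have h1 : (x, y) = (x', y') := congrArg Subtype.val h
    obtain ⟨rfl, rfl⟩ := Prod.mk.inj h1
    rfl
  · rintro ⟨⟨x, y⟩, h⟩
    exact ⟨(⟨x, fun hx => h (Or.inl hx)⟩, ⟨y, fun hy => h (Or.inr hy)⟩), rfl⟩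

/-- **the lowest degree of a relative product** -/
theorem acy_prodSb {X Y : SS} {A : Sb X} {A' : Sb Y} {a b : ℕ} (h : (ch K (prt A)).Acy a)
    (h' : (ch K (prt A')).Acy b) : (ch K (prt (prodSb A A'))).Acy (a + b) :=
  (smashProd A A').acy_of_bijective (smashProd_bijective A A') (smash_acy h h')

/-- the ends of the interval -/
def ends : Sb D1 := endsOf (SS.Map.id D1)

theorem acy_ends : (ch K (prt ends)).Acy 1 := by
  refine SMod.acy_of_subsingleton fun j hj => ?_
  obtain rfl : j = 0 := by omega
  have he : IsEmpty {x : D1.obj 0 // ¬ ends.mem x} := by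
    refine ⟨fun x => x.2 ?_⟩
    rcases fin2_cases (x.1.toFun 0) with h | h
    · exact Or.inl (eq_c0 fun i => by rw [Subsingleton.elim (α := Fin 1) i 0]; exact h)
    · exact Or.inr (eq_c1 fun i => by rw [Subsingleton.elim (α := Fin 1) i 0]; exact h)
  show Subsingleton ({x : D1.obj 0 // ¬ ends.mem x} →₀ K)
  infer_instance

/-- the comparison of the smash power of the interval with the cube -/
noncomputable def powSN (n : ℕ) : PMap ((prt ends).fn n) (prt (SN.base n)) where
  app {p} a := ⟨fun i => (a i).1, fun ⟨i, h⟩ => (a i).2 h⟩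
  nat {p q} f a := by
    refine nat_of (fun y hy => ?_) fun hy => ?_
    · have h1 := seqO_eq_some.1 hy
      exact prtMap_eq_some.2 (funext fun i => prtMap_eq_some.1 (h1 i))
    · refine prtMap_neg ?_
      by_contra hc
      have hc' : ∀ i, ¬ ends.mem (D1.map f (a i).1) := fun i h => hc ⟨i, h⟩
      have : ((prt ends).fn n).map f a = some fun i => ⟨D1.map f (a i).1, hc' i⟩ :=
        seqO_eq_some.2 fun i => prtMap_eq_some.2 rfl
      rw [this] at hy
      exact absurd hy (by simp)

theorem powSN_bijective (n p : ℕ) : Function.Bijective ((powSN n).app (p := p)) := by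
  constructor
  · intro a b h
    funext i
    exact Subtype.ext (congrFun (congrArg Subtype.val h) i)
  · rintro ⟨τ, h⟩
    exact ⟨fun i => ⟨τ i, fun hi => h ⟨i, hi⟩⟩, rfl⟩

/-- **the cube modulo its boundary** -/
theorem acy_SN (n : ℕ) : (ch K (prt (SN.base n))).Acy n := by
  have := (powSN n).acy_of_bijective (powSN_bijective n) (PSS.fn_acy (acy_ends (K := K)) n)
  rwa [Nat.mul_one] at this

/-- **suspensions** of relative simplicial sets -/
theorem acy_prod_SN {B : SS} {A : Sb B} {a : ℕ} (h : (ch K (prt A)).Acy a) (n : ℕ) :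
    (ch K (prt (prodSb A (SN.base n)))).Acy (a + n) := acy_prodSb h (acy_SN n)

theorem acy_prod_SN' {B : SS} (A : Sb B) (n : ℕ) :
    (ch K (prt (prodSb A (SN.base n)))).Acy n := by
  have := acy_prod_SN (SMod.acy_zero (ch K (prt A))) n
  rwa [Nat.zero_add] at this

/-- suspensions, the base is only the boundary of the cube -/
theorem acy_comap_SN (B : SS) (n : ℕ) :
    (ch K (prt ((SN.base n).comap (SS.snd B (SN n))))).Acy n := by
  have h := acy_prod_SN' (K := K) (Sb.empty B) n
  let F : PMap (prt (prodSb (Sb.empty B) (SN.base n)))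
      (prt ((SN.base n).comap (SS.snd B (SN n)))) :=
    { app := fun x => ⟨x.1, fun h => x.2 (Or.inr h)⟩
      nat := fun {p q} f x => by
        refine nat_of (fun y hy => ?_) fun hy => ?_
        · have h1 : (B.prod (SN n)).map f x.1 = y.1 :=
            (prtMap_eq_some (A := prodSb (Sb.empty B) (SN.base n))).1 hy
          exact prtMap_eq_some.2 h1
        · refine prtMap_neg ?_
          by_contra hc
          have : (prt (prodSb (Sb.empty B) (SN.base n))).map f x =
              some ⟨(B.prod (SN n)).map f x.1, fun h => h.elim id hc⟩ :=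
            prtMap_eq_some.2 rfl
          rw [this] at hy
          exact absurd hy (by simp) }
  refine F.acy_of_bijective (fun p => ⟨?_, ?_⟩) h
  · intro x y hxy
    exact Subtype.ext (congrArg (fun z => z.1) hxy)
  · rintro ⟨x, hx⟩
    exact ⟨⟨x, fun h => h.elim id hx⟩, rfl⟩

end Vale.Agent.P263.GR
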